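import Mathlib

open MeasureTheory Set Filter Topology
open scoped ContDiff

namespace Vale.Agent.P252

theorem mul_mem_of_ordConnected {J : Set ℝ} (hJc : J.OrdConnected) (h0 : (0:ℝ) ∈ J) {ρ τ : ℝ}
    (hρ : ρ ∈ J) (h1 : 0 ≤ τ) (h2 : τ ≤ 1) : τ * ρ ∈ J := by
  rcases le_total 0 ρ with h | h
  · exact hJc.out h0 hρ ⟨by positivity, by nlinarith⟩
  · exact hJc.out hρ h0 ⟨by nlinarith, by nlinarith⟩

theorem exists_compact_nhds {J : Set ℝ} (hJ : IsOpen J) (hJc : J.OrdConnected)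
    (h0 : (0:ℝ) ∈ J) {ρ : ℝ} (hρ : ρ ∈ J) :
    ∃ c d : ℝ, c ≤ 0 ∧ 0 ≤ d ∧ c < ρ ∧ ρ < d ∧ Icc c d ⊆ J := by
  obtain ⟨r, hr, hsub⟩ := Metric.isOpen_iff.1 hJ ρ hρ
  have m1 : ρ - r / 2 ∈ J := hsub (by
    rw [Metric.mem_ball, Real.dist_eq]
    rw [abs_lt]; constructor <;> linarith)
  have m2 : ρ + r / 2 ∈ J := hsub (by
    rw [Metric.mem_ball, Real.dist_eq]
    rw [abs_lt]; constructor <;> linarith)
  refine ⟨min 0 (ρ - r / 2), max 0 (ρ + r / 2), min_le_left _ _, le_max_left _ _,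
    lt_of_le_of_lt (min_le_right _ _) (by linarith),
    lt_of_lt_of_le (by linarith) (le_max_right _ _), ?_⟩
  have e1 : min 0 (ρ - r / 2) ∈ J := by
    rcases min_choice 0 (ρ - r / 2) with h | h <;> rw [h] <;> assumption
  have e2 : max 0 (ρ + r / 2) ∈ J := by
    rcases max_choice 0 (ρ + r / 2) with h | h <;> rw [h] <;> assumption
  exact hJc.out e1 e2

theorem continuousOn_rpow_unit {a : ℝ} (ha : 0 ≤ a) : Continuous fun τ : ℝ => τ ^ a :=
  continuous_id.rpow_const fun _ => Or.inr ha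

theorem continuousOn_comp_mul {J : Set ℝ} (hJc : J.OrdConnected)
    (h0 : (0:ℝ) ∈ J) {g : ℝ → ℝ} (hg : ContinuousOn g J) {ρ : ℝ} (hρ : ρ ∈ J) {a : ℝ}
    (ha : 0 ≤ a) : ContinuousOn (fun τ : ℝ => τ ^ a * g (τ * ρ)) (Icc 0 1) := by
  refine (continuousOn_rpow_unit ha).continuousOn.mul (hg.comp (by fun_prop) ?_)
  intro τ hτ
  exact mul_mem_of_ordConnected hJc h0 hρ hτ.1 hτ.2

theorem continuousOn_avg (a : ℝ) (ha : 0 ≤ a) {J : Set ℝ} (hJ : IsOpen J) (hJc : J.OrdConnected)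
    (h0 : (0:ℝ) ∈ J) {g : ℝ → ℝ} (hg : ContinuousOn g J) :
    ContinuousOn (fun ρ => ∫ τ in (0:ℝ)..1, τ ^ a * g (τ * ρ)) J := by
  intro ρ hρ
  obtain ⟨c, d, hc0, hd0, hcρ, hρd, hsub⟩ := exists_compact_nhds hJ hJc h0 hρ
  have hcd : c ≤ d := hc0.trans hd0
  -- extend `g` from the compact interval
  have hext : Continuous (fun x => g (projIcc c d hcd x)) := by
    have : Continuous (fun x : Icc c d => g x) :=
      continuousOn_iff_continuous_domRestrict.1 (hg.mono hsub)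
    exact this.comp continuous_projIcc
  have hcont : Continuous fun ρ : ℝ =>
      ∫ τ in (0:ℝ)..1, τ ^ a * g (projIcc c d hcd (τ * ρ)) := by
    apply intervalIntegral.continuous_parametric_intervalIntegral_of_continuous'
    have h1 : Continuous fun p : ℝ × ℝ => p.2 ^ a :=
      (continuousOn_rpow_unit ha).comp continuous_snd
    have h2 : Continuous fun p : ℝ × ℝ => g (projIcc c d hcd (p.2 * p.1)) :=
      hext.comp (continuous_snd.mul continuous_fst)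
    exact h1.mul h2
  apply ContinuousAt.continuousWithinAt
  refine hcont.continuousAt.congr ?_
  have hnhds : Icc c d ∈ 𝓝 ρ := Icc_mem_nhds hcρ hρd
  filter_upwards [hnhds] with x hx
  refine intervalIntegral.integral_congr fun τ hτ => ?_
  rw [uIcc_of_le zero_le_one] at hτ
  have hmem : τ * x ∈ Icc c d := by
    have : (Icc c d).OrdConnected := ordConnected_Icc
    exact mul_mem_of_ordConnected this ⟨hc0, hd0⟩ hx hτ.1 hτ.2
  simp only [projIcc_of_mem hcd hmem]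

theorem hasDerivAt_avg_deriv (a : ℝ) (ha : 0 ≤ a) {J : Set ℝ} (hJ : IsOpen J)
    (hJc : J.OrdConnected) (h0 : (0:ℝ) ∈ J) {g : ℝ → ℝ} (hg : ContDiffOn ℝ 1 g J) {ρ : ℝ}
    (hρ : ρ ∈ J) :
    HasDerivAt (fun ρ => ∫ τ in (0:ℝ)..1, τ ^ a * g (τ * ρ))
      (∫ τ in (0:ℝ)..1, τ ^ (a + 1) * deriv g (τ * ρ)) ρ := by
  obtain ⟨c, d, hc0, hd0, hcρ, hρd, hsub⟩ := exists_compact_nhds hJ hJc h0 hρ
  have hnhds : Icc c d ∈ 𝓝 ρ := Icc_mem_nhds hcρ hρd
  have hdc : ContinuousOn (deriv g) J :=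
    ((contDiffOn_succ_iff_deriv_of_isOpen (n := 0) hJ).1 (by simpa using hg)).2.2.continuousOn
  have hdd : ∀ x ∈ J, HasDerivAt g (deriv g x) x := fun x hx =>
    ((hg.differentiableOn (by norm_num)).differentiableAt (hJ.mem_nhds hx)).hasDerivAt
  obtain ⟨M, hM⟩ := isCompact_Icc.exists_bound_of_continuousOn (hdc.mono hsub)
  have hcontF : ∀ x ∈ J, ContinuousOn (fun τ : ℝ => τ ^ a * g (τ * x)) (uIcc 0 1) := by
    intro x hx
    rw [uIcc_of_le zero_le_one]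
    exact continuousOn_comp_mul hJc h0 hg.continuousOn hx ha
  have hcontF' : ∀ x ∈ J, ContinuousOn (fun τ : ℝ => τ ^ (a + 1) * deriv g (τ * x)) (uIcc 0 1) := by
    intro x hx
    rw [uIcc_of_le zero_le_one]
    exact continuousOn_comp_mul hJc h0 hdc hx (by linarith)
  refine (intervalIntegral.hasDerivAt_integral_of_dominated_loc_of_deriv_le (bound := fun _ => M)
    (F := fun x τ => τ ^ a * g (τ * x)) (F' := fun x τ => τ ^ (a + 1) * deriv g (τ * x))
    hnhds ?_ ?_ ?_ ?_ ?_ ?_).2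
  · filter_upwards [hnhds] with x hx
    rw [uIoc_of_le zero_le_one]
    exact (hcontF x (hsub hx)).intervalIntegrable.1.aestronglyMeasurable
  · exact (hcontF ρ hρ).intervalIntegrable
  · rw [uIoc_of_le zero_le_one]
    exact (hcontF' ρ hρ).intervalIntegrable.1.aestronglyMeasurable
  · refine Eventually.of_forall fun t ht x hx => ?_
    rw [uIoc_of_le zero_le_one] at ht
    have hmem : t * x ∈ Icc c d :=
      mul_mem_of_ordConnected ordConnected_Icc ⟨hc0, hd0⟩ hx ht.1.le ht.2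
    have h1 := hM _ hmem
    have h2 : |t ^ (a + 1)| ≤ 1 := by
      rw [abs_of_nonneg (Real.rpow_nonneg ht.1.le _)]
      exact Real.rpow_le_one ht.1.le ht.2 (by linarith)
    rw [norm_mul, Real.norm_eq_abs]
    calc |t ^ (a + 1)| * ‖deriv g (t * x)‖ ≤ 1 * M :=
          mul_le_mul h2 h1 (norm_nonneg _) zero_le_one
      _ = M := one_mul M
  · exact intervalIntegrable_const
  · refine Eventually.of_forall fun t ht x hx => ?_
    rw [uIoc_of_le zero_le_one] at ht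
    have hmem : t * x ∈ Icc c d :=
      mul_mem_of_ordConnected ordConnected_Icc ⟨hc0, hd0⟩ hx ht.1.le ht.2
    have h1 := hdd _ (hsub hmem)
    have h2 : HasDerivAt (fun x : ℝ => t * x) t x := by simpa using (hasDerivAt_id x).const_mul t
    have h3 := (h1.comp x h2).const_mul (t ^ a)
    have e : t ^ (a + 1) * deriv g (t * x) = t ^ a * (deriv g (t * x) * t) := by
      rw [Real.rpow_add ht.1, Real.rpow_one]; ring
    rw [e]
    exact h3

/-- (T1) the averaging operator preserves `C^k` on open intervals around `0`. -/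
theorem contDiffOn_avg (a : ℝ) (ha : 0 ≤ a) {J : Set ℝ} (hJ : IsOpen J) (hJc : J.OrdConnected)
    (h0 : (0:ℝ) ∈ J) {g : ℝ → ℝ} {k : ℕ} (hg : ContDiffOn ℝ k g J) :
    ContDiffOn ℝ k (fun ρ => ∫ τ in (0:ℝ)..1, τ ^ a * g (τ * ρ)) J := by
  induction k generalizing a g with
  | zero =>
    rw [Nat.cast_zero, contDiffOn_zero] at hg ⊢
    exact continuousOn_avg a ha hJ hJc h0 hg
  | succ k ih =>
    have hg1 : ContDiffOn ℝ 1 g J := hg.of_le (by
      have : (1 : ℕ) ≤ k + 1 := by omega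
      exact_mod_cast this)
    rw [Nat.cast_add, Nat.cast_one] at hg ⊢
    rw [contDiffOn_succ_iff_deriv_of_isOpen hJ] at hg ⊢
    have hder : ∀ ρ ∈ J, HasDerivAt (fun ρ => ∫ τ in (0:ℝ)..1, τ ^ a * g (τ * ρ))
      (∫ τ in (0:ℝ)..1, τ ^ (a + 1) * deriv g (τ * ρ)) ρ := fun ρ hρ =>
        hasDerivAt_avg_deriv a ha hJ hJc h0 hg1 hρ
    refine ⟨fun ρ hρ => (hder ρ hρ).differentiableAt.differentiableWithinAt, ?_, ?_⟩
    · intro h
      exact absurd h (by simp)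
    · refine (ih (a + 1) (by linarith) hg.2.2).congr fun ρ hρ => ?_
      exact (hder ρ hρ).deriv

/-- the averaging operator preserves `C^∞` on open intervals around `0`. -/
theorem contDiffOn_avg_infty (a : ℝ) (ha : 0 ≤ a) {J : Set ℝ} (hJ : IsOpen J)
    (hJc : J.OrdConnected) (h0 : (0:ℝ) ∈ J) {g : ℝ → ℝ} (hg : ContDiffOn ℝ ∞ g J) :
    ContDiffOn ℝ ∞ (fun ρ => ∫ τ in (0:ℝ)..1, τ ^ a * g (τ * ρ)) J := by
  rw [contDiffOn_infty] at hg ⊢
  exact fun k => contDiffOn_avg a ha hJ hJc h0 (hg k)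

theorem mul_avg_of_pos (a : ℝ) (ha : 0 ≤ a) {g : ℝ → ℝ} {ρ : ℝ} (hρ : 0 < ρ) :
    ρ * ∫ τ in (0:ℝ)..1, τ ^ a * g (τ * ρ) =
      ρ ^ (-a) * ∫ η in (0:ℝ)..ρ, η ^ a * g η := by
  have h := intervalIntegral.integral_comp_mul_right (a := 0) (b := 1)
    (fun η => η ^ a * g η) hρ.ne'
  rw [zero_mul, one_mul] at h
  have h2 : ∫ τ in (0:ℝ)..1, (τ * ρ) ^ a * g (τ * ρ) =
      ρ ^ a * ∫ τ in (0:ℝ)..1, τ ^ a * g (τ * ρ) := by
    rw [← intervalIntegral.integral_const_mul]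
    refine intervalIntegral.integral_congr fun τ hτ => ?_
    rw [uIcc_of_le zero_le_one] at hτ
    rw [Real.mul_rpow hτ.1 hρ.le]
    ring
  rw [h2] at h
  rw [smul_eq_mul] at h
  have h3 : ∫ η in (0:ℝ)..ρ, η ^ a * g η =
      ρ * (ρ ^ a * ∫ τ in (0:ℝ)..1, τ ^ a * g (τ * ρ)) := by
    rw [h]; field_simp
  rw [h3, Real.rpow_neg hρ.le]
  have : ρ ^ a ≠ 0 := (Real.rpow_pos_of_pos hρ a).ne'
  field_simp

theorem hasDerivAt_avg_pos (a : ℝ) (ha : 0 ≤ a) {J : Set ℝ} (hJ : IsOpen J) (hJc : J.OrdConnected)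
    (h0 : (0:ℝ) ∈ J) {g : ℝ → ℝ} (hg : ContinuousOn g J) {ρ : ℝ} (hρ : ρ ∈ J) (hpos : 0 < ρ) :
    HasDerivAt (fun ρ => ρ * ∫ τ in (0:ℝ)..1, τ ^ a * g (τ * ρ))
      (g ρ - a * ∫ τ in (0:ℝ)..1, τ ^ a * g (τ * ρ)) ρ := by
  have hcont : ContinuousOn (fun η : ℝ => η ^ a * g η) J :=
    (continuousOn_rpow_unit ha).continuousOn.mul hg
  have hsub : uIcc 0 ρ ⊆ J := by
    rw [uIcc_of_le hpos.le]; exact hJc.out h0 hρ
  have hP : HasDerivAt (fun x => ∫ η in (0:ℝ)..x, η ^ a * g η) (ρ ^ a * g ρ) ρ := by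
    apply intervalIntegral.integral_hasDerivAt_right
    · exact (hcont.mono hsub).intervalIntegrable
    · exact hcont.stronglyMeasurableAtFilter hJ _ hρ
    · exact hcont.continuousAt (hJ.mem_nhds hρ)
  have hR : HasDerivAt (fun x : ℝ => x ^ (-a)) (-a * ρ ^ (-a - 1)) ρ :=
    Real.hasDerivAt_rpow_const (Or.inl hpos.ne')
  have hprod := hR.mul hP
  have hval : -a * ρ ^ (-a - 1) * (∫ η in (0:ℝ)..ρ, η ^ a * g η) +
      ρ ^ (-a) * (ρ ^ a * g ρ) = g ρ - a * ∫ τ in (0:ℝ)..1, τ ^ a * g (τ * ρ) := by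
    have e1 := mul_avg_of_pos a ha (g := g) hpos
    have e2 : ρ ^ (-a) * ρ ^ a = 1 := by
      rw [← Real.rpow_add hpos]; simp
    have e3 : ρ ^ (-a - 1) = ρ ^ (-a) * ρ⁻¹ := by
      rw [Real.rpow_sub hpos, Real.rpow_one]; rfl
    rw [e3]
    have e4 : ρ ^ (-a) * (∫ η in (0:ℝ)..ρ, η ^ a * g η) * ρ⁻¹ =
        ∫ τ in (0:ℝ)..1, τ ^ a * g (τ * ρ) := by
      rw [← e1]; field_simp
    calc _ = -a * (ρ ^ (-a) * (∫ η in (0:ℝ)..ρ, η ^ a * g η) * ρ⁻¹) +
        (ρ ^ (-a) * ρ ^ a) * g ρ := by ring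
      _ = _ := by rw [e4, e2]; ring
  rw [hval] at hprod
  refine hprod.congr_of_eventuallyEq ?_
  filter_upwards [Ioi_mem_nhds hpos] with x hx
  exact mul_avg_of_pos a ha hx

/-- (T2) derivative of `ρ` times the average. -/
theorem hasDerivAt_avg (a : ℝ) (ha : 0 ≤ a) {J : Set ℝ} (hJ : IsOpen J) (hJc : J.OrdConnected)
    (h0 : (0:ℝ) ∈ J) {g : ℝ → ℝ} (hg : ContinuousOn g J) {ρ : ℝ} (hρ : ρ ∈ J) :
    HasDerivAt (fun ρ => ρ * ∫ τ in (0:ℝ)..1, τ ^ a * g (τ * ρ))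
      (g ρ - a * ∫ τ in (0:ℝ)..1, τ ^ a * g (τ * ρ)) ρ := by
  rcases lt_trichotomy ρ 0 with hneg | hzero | hpos
  · -- reflect
    have hJ' : IsOpen (Neg.neg ⁻¹' J) := hJ.preimage continuous_neg
    have hJc' : (Neg.neg ⁻¹' J).OrdConnected := by
      constructor
      intro x hx y hy z hz
      exact hJc.out hy hx ⟨by linarith [hz.2], by linarith [hz.1]⟩
    have h := hasDerivAt_avg_pos a ha hJ' hJc' (g := fun x => g (-x)) (by simpa using h0)
      (hg.comp continuous_neg.continuousOn (fun x hx => hx)) (ρ := -ρ) (by simpa using hρ)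
      (by linarith)
    have h2 : HasDerivAt (fun x : ℝ => -x) (-1) ρ := hasDerivAt_neg ρ
    have h3 := (h.comp ρ h2).neg
    simp only [neg_neg] at h3
    have e : -((g ρ - a * ∫ (τ : ℝ) in (0:ℝ)..1, τ ^ a * g (-(τ * -ρ))) * -1) =
        g ρ - a * ∫ τ in (0:ℝ)..1, τ ^ a * g (τ * ρ) := by
      simp only [mul_neg, neg_neg]; ring
    rw [e] at h3
    refine h3.congr_of_eventuallyEq (Eventually.of_forall fun x => ?_)
    simp only [Pi.neg_apply, Function.comp_apply, mul_neg, neg_neg, neg_mul]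
  · subst hzero
    have hA := (continuousOn_avg a ha hJ hJc h0 hg).continuousAt (hJ.mem_nhds h0)
    have hval : g 0 - a * ∫ τ in (0:ℝ)..1, τ ^ a * g (τ * 0) =
        ∫ τ in (0:ℝ)..1, τ ^ a * g (τ * 0) := by
      simp only [mul_zero]
      rw [intervalIntegral.integral_mul_const, integral_rpow (Or.inl (by linarith))]
      rw [Real.one_rpow, Real.zero_rpow (by linarith)]
      field_simp
      ring
    rw [hval, hasDerivAt_iff_tendsto_slope]
    refine (hA.tendsto.mono_left nhdsWithin_le_nhds).congr' ?_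
    filter_upwards [self_mem_nhdsWithin] with x hx
    rw [slope_def_field]
    have hx' : x ≠ 0 := hx
    rw [zero_mul, sub_zero, sub_zero, mul_div_cancel_left₀ _ hx']
  · exact hasDerivAt_avg_pos a ha hJ hJc h0 hg hρ hpos

end Vale.Agent.P252
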