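import Mathlib

/-!
Definitions for the affine Bernstein problem, following the wording of the problem file.
-/

namespace Vale.Agent.P252

open Set Filter Topology
open scoped ContDiff

/-- The partial derivative `∂ᵢ f`. -/
noncomputable def pd {n : ℕ} (i : Fin n) (f : EuclideanSpace ℝ (Fin n) → ℝ)
    (x : EuclideanSpace ℝ (Fin n)) : ℝ :=
  fderiv ℝ f x (EuclideanSpace.single i 1)

/-- The Hessian matrix `(∂ᵢ∂ⱼ u)`. -/
noncomputable def hess {n : ℕ} (u : EuclideanSpace ℝ (Fin n) → ℝ)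
    (x : EuclideanSpace ℝ (Fin n)) : Matrix (Fin n) (Fin n) ℝ :=
  Matrix.of fun i j => pd i (pd j u) x

/-- `w = (det D²u)^{-(n+1)/(n+2)}`. -/
noncomputable def affW {n : ℕ} (u : EuclideanSpace ℝ (Fin n) → ℝ)
    (x : EuclideanSpace ℝ (Fin n)) : ℝ :=
  (hess u x).det ^ (-(((n : ℝ) + 1) / ((n : ℝ) + 2)))

/-- The affine maximal equation `∑ᵢⱼ Uⁱʲ ∂ᵢⱼ w = 0` in `Ω`, where
`Uⁱʲ = det (D²u) (D²u)⁻¹ᵢⱼ`. -/
def SolvesAM {n : ℕ} (Ω : Set (EuclideanSpace ℝ (Fin n)))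
    (u : EuclideanSpace ℝ (Fin n) → ℝ) : Prop :=
  ∀ x ∈ Ω, ∑ i, ∑ j, ((hess u x).det * (hess u x)⁻¹ i j) * hess (affW u) x i j = 0

/-- The length of the curve `γ : [0,1] → Ω` for the metric `g = δᵢⱼ + uᵢ uⱼ`, which is the
Euclidean length of its lift to the graph of `u`. -/
noncomputable def graphLength {n : ℕ} (u : EuclideanSpace ℝ (Fin n) → ℝ)
    (γ : ℝ → EuclideanSpace ℝ (Fin n)) : ℝ :=
  ∫ t in (0 : ℝ)..1, Real.sqrt (‖deriv γ t‖ ^ 2 + (fderiv ℝ u (γ t) (deriv γ t)) ^ 2)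

/-- The Riemannian distance on `Ω` of the metric `g = δᵢⱼ + uᵢ uⱼ`: the infimum of the lengths of
the `C¹` curves in `Ω` joining two points. -/
noncomputable def graphDist {n : ℕ} (Ω : Set (EuclideanSpace ℝ (Fin n)))
    (u : EuclideanSpace ℝ (Fin n) → ℝ) (x y : EuclideanSpace ℝ (Fin n)) : ℝ :=
  sInf {ℓ : ℝ | ∃ γ : ℝ → EuclideanSpace ℝ (Fin n), ContDiff ℝ 1 γ ∧ γ 0 = x ∧ γ 1 = y ∧
    (∀ t ∈ Icc (0 : ℝ) 1, γ t ∈ Ω) ∧ ℓ = graphLength u γ}

/-- The graph of `u` over `Ω` is Euclidean complete: every Cauchy sequence for the Riemannian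
distance of the induced metric `g = δᵢⱼ + uᵢ uⱼ` converges to a point of `Ω`. -/
def EuclideanComplete {n : ℕ} (Ω : Set (EuclideanSpace ℝ (Fin n)))
    (u : EuclideanSpace ℝ (Fin n) → ℝ) : Prop :=
  ∀ p : ℕ → EuclideanSpace ℝ (Fin n), (∀ k, p k ∈ Ω) →
    (∀ ε > 0, ∃ N, ∀ j ≥ N, ∀ k ≥ N, graphDist Ω u (p j) (p k) < ε) →
    ∃ x ∈ Ω, Tendsto (fun k => graphDist Ω u (p k) x) atTop (𝓝 0)

/-- `u(x) = ½ xᵀ A x + b · x + c` on all of `ℝⁿ`. -/
def IsQuadraticWith {n : ℕ} (A : Matrix (Fin n) (Fin n) ℝ) (b : Fin n → ℝ) (c : ℝ)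
    (u : EuclideanSpace ℝ (Fin n) → ℝ) : Prop :=
  ∀ x : EuclideanSpace ℝ (Fin n),
    u x = (1 / 2) * (∑ i, ∑ j, x i * A i j * x j) + ∑ i, b i * x i + c

/-- The statement asked about in Q1, in dimension `n`: if `u` is smooth with positive definite
Hessian on the nonempty open convex set `Ω`, solves (AM) and has Euclidean complete graph, then
`Ω = ℝⁿ` and the graph is an elliptic paraboloid. -/
def AffineBernstein (n : ℕ) : Prop :=
  ∀ (Ω : Set (EuclideanSpace ℝ (Fin n))) (u : EuclideanSpace ℝ (Fin n) → ℝ),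
    Ω.Nonempty → IsOpen Ω → Convex ℝ Ω → ContDiffOn ℝ ∞ u Ω →
    (∀ x ∈ Ω, (hess u x).PosDef) → SolvesAM Ω u → EuclideanComplete Ω u →
    Ω = univ ∧ ∃ (A : Matrix (Fin n) (Fin n) ℝ) (b : Fin n → ℝ) (c : ℝ),
      A.PosDef ∧ IsQuadraticWith A b c u

/-- The entire-graph form in dimension `n`: every smooth `u` on `ℝⁿ` with positive definite Hessian
solving (AM) is a quadratic polynomial. -/
def AffineBernsteinEntire (n : ℕ) : Prop :=
  ∀ u : EuclideanSpace ℝ (Fin n) → ℝ, ContDiff ℝ ∞ u →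
    (∀ x, (hess u x).PosDef) → SolvesAM univ u →
    ∃ (A : Matrix (Fin n) (Fin n) ℝ) (b : Fin n → ℝ) (c : ℝ), IsQuadraticWith A b c u

end Vale.Agent.P252
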