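import Mathlib

namespace Vale.Agent.P252

open Matrix Finset

variable {m : ℕ}

/-- `x` with the zeroth coordinate removed. -/
def xt (x : Fin (m + 1) → ℝ) (i : Fin (m + 1)) : ℝ := if i = 0 then 0 else x i

/-- The zeroth unit vector. -/
def ee (i : Fin (m + 1)) : ℝ := if i = 0 then 1 else 0

/-- squared length of `xt x` -/
def rr (x : Fin (m + 1) → ℝ) : ℝ := ∑ i, xt x i ^ 2

lemma ee_dot_ee : (ee : Fin (m + 1) → ℝ) ⬝ᵥ ee = 1 := by
  simp [dotProduct, ee]

lemma ee_dot_xt (x : Fin (m + 1) → ℝ) : ee ⬝ᵥ xt x = 0 := by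
  apply Finset.sum_eq_zero
  intro i _
  by_cases h : i = 0 <;> simp [ee, xt, h]

lemma xt_dot_ee (x : Fin (m + 1) → ℝ) : xt x ⬝ᵥ ee = 0 := by
  rw [dotProduct_comm]; exact ee_dot_xt x

lemma xt_dot_xt (x : Fin (m + 1) → ℝ) : xt x ⬝ᵥ xt x = rr x := by
  simp [dotProduct, rr, pow_two]

/-- general structured matrix -/
def Q (x : Fin (m + 1) → ℝ) (α β γ γ' δ : ℝ) : Matrix (Fin (m + 1)) (Fin (m + 1)) ℝ :=
  α • (1 : Matrix (Fin (m + 1)) (Fin (m + 1)) ℝ) + β • vecMulVec (xt x) (xt x) +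
    γ • vecMulVec (xt x) ee + γ' • vecMulVec ee (xt x) + δ • vecMulVec ee ee

/-- structured symmetric matrix -/
def St (x : Fin (m + 1) → ℝ) (a b c d : ℝ) : Matrix (Fin (m + 1)) (Fin (m + 1)) ℝ :=
  Q x a b c c (d - a)

lemma Q_mul (x : Fin (m + 1) → ℝ) (α β γ γ' δ α₂ β₂ γ₂ γ₂' δ₂ : ℝ) :
    Q x α β γ γ' δ * Q x α₂ β₂ γ₂ γ₂' δ₂ =
      Q x (α * α₂) (α * β₂ + β * α₂ + β * β₂ * rr x + γ * γ₂')
        (α * γ₂ + γ * α₂ + β * γ₂ * rr x + γ * δ₂)
        (α * γ₂' + γ' * α₂ + γ' * β₂ * rr x + δ * γ₂')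
        (α * δ₂ + δ * α₂ + γ' * γ₂ * rr x + δ * δ₂) := by
  unfold Q
  simp only [Matrix.add_mul, Matrix.mul_add, Matrix.smul_mul, Matrix.mul_smul, Matrix.one_mul,
    Matrix.mul_one, vecMulVec_mul_vecMulVec, ee_dot_ee, ee_dot_xt, xt_dot_ee, xt_dot_xt]
  ext i j
  simp only [Matrix.add_apply, Matrix.smul_apply, vecMulVec_apply, smul_eq_mul, Pi.smul_apply]
  ring

lemma trace_Q (x : Fin (m + 1) → ℝ) (α β γ γ' δ : ℝ) :
    (Q x α β γ γ' δ).trace = α * (m + 1) + β * rr x + δ := by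
  unfold Q
  simp only [Matrix.trace_add, Matrix.trace_smul, Matrix.trace_one, trace_vecMulVec, ee_dot_ee,
    ee_dot_xt, xt_dot_ee, xt_dot_xt, smul_eq_mul]
  simp

lemma Q_one (x : Fin (m + 1) → ℝ) : Q x 1 0 0 0 0 = 1 := by
  unfold Q; simp

lemma St_mul_inv (x : Fin (m + 1) → ℝ) {a b c d : ℝ} (ha : a ≠ 0)
    (hΔ : (a + b * rr x) * d - c ^ 2 * rr x ≠ 0) :
    St x a b c d * St x (1 / a) ((c ^ 2 - b * d) / (a * ((a + b * rr x) * d - c ^ 2 * rr x)))
      (-c / ((a + b * rr x) * d - c ^ 2 * rr x))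
      ((a + b * rr x) / ((a + b * rr x) * d - c ^ 2 * rr x)) = 1 := by
  unfold St
  rw [Q_mul, ← Q_one x]
  set Δ := (a + b * rr x) * d - c ^ 2 * rr x with hΔdef
  congr 1
  · field_simp
  · field_simp
    rw [hΔdef]; ring
  · field_simp
    rw [hΔdef]; ring
  · field_simp
    rw [hΔdef]; ring
  · field_simp
    rw [hΔdef]; ring

/-- the `n × 2` factor -/
def UU (x : Fin (m + 1) → ℝ) : Matrix (Fin (m + 1)) (Fin 2) ℝ :=
  Matrix.of fun i k => if k = 0 then xt x i else ee i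

lemma det_St (x : Fin (m + 1) → ℝ) {a b c d : ℝ} (ha : a ≠ 0) :
    (St x a b c d).det = a ^ (m + 1) * (((a + b * rr x) * d - c ^ 2 * rr x) / a ^ 2) := by
  have h1 : St x a b c d = a • (1 + UU x * (!![b / a, c / a; c / a, (d - a) / a] * (UU x)ᵀ)) := by
    ext i j
    simp only [St, Q, UU, Matrix.add_apply, Matrix.smul_apply, vecMulVec_apply, smul_eq_mul,
      Matrix.mul_apply, Fin.sum_univ_two, Matrix.transpose_apply, Matrix.of_apply]
    simp
    field_simp
    ring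
  rw [h1, Matrix.det_smul, Matrix.det_one_add_mul_comm, Fintype.card_fin]
  congr 1
  have h2 : (!![b / a, c / a; c / a, (d - a) / a] * (UU x)ᵀ) * UU x =
      !![b / a, c / a; c / a, (d - a) / a] * !![rr x, 0; 0, 1] := by
    rw [Matrix.mul_assoc]
    congr 1
    ext i j
    have e1 := ee_dot_ee (m := m)
    have e2 := ee_dot_xt x
    have e3 := xt_dot_ee x
    have e4 := xt_dot_xt x
    simp only [dotProduct] at e1 e2 e3 e4
    fin_cases i <;> fin_cases j <;>
      simp [UU, Matrix.mul_apply, e1, e2, e3, e4]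
  rw [h2, Matrix.det_fin_two]
  simp
  field_simp
  ring

lemma adjugate_of_mul_eq_one {k : ℕ} {M N : Matrix (Fin k) (Fin k) ℝ} (h : M * N = 1) :
    M.adjugate = M.det • N := by
  calc M.adjugate = M.adjugate * (M * N) := by rw [h, Matrix.mul_one]
    _ = (M.adjugate * M) * N := by rw [Matrix.mul_assoc]
    _ = M.det • N := by rw [Matrix.adjugate_mul, Matrix.smul_mul, Matrix.one_mul]

lemma Q_transpose (x : Fin (m + 1) → ℝ) (α β γ γ' δ : ℝ) :
    (Q x α β γ γ' δ)ᵀ = Q x α β γ' γ δ := by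
  ext i j
  simp only [Q, Matrix.transpose_apply, Matrix.add_apply, Matrix.smul_apply, vecMulVec_apply,
    smul_eq_mul, Matrix.one_apply, eq_comm (a := j) (b := i)]
  ring

/-- contraction of the adjugate of one structured matrix with another one -/
lemma sum_adjugate (x : Fin (m + 1) → ℝ) {a b c d : ℝ} (ha : a ≠ 0)
    (hΔ : (a + b * rr x) * d - c ^ 2 * rr x ≠ 0) (a₂ b₂ c₂ d₂ : ℝ) :
    ∑ i, ∑ j, (St x a b c d).adjugate i j * (St x a₂ b₂ c₂ d₂) i j =
      a ^ (m + 1) / a ^ 3 * (((m : ℝ) - 1) * a₂ * ((a + b * rr x) * d - c ^ 2 * rr x) +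
        a * (d * (a₂ + b₂ * rr x) - 2 * c * c₂ * rr x + (a + b * rr x) * d₂)) := by
  have h1 := adjugate_of_mul_eq_one (St_mul_inv x ha hΔ)
  have h2 : ∀ N M : Matrix (Fin (m + 1)) (Fin (m + 1)) ℝ,
      ∑ i, ∑ j, N i j * M i j = (N * Mᵀ).trace := by
    intro N M
    simp [Matrix.trace, Matrix.mul_apply]
  rw [h2, h1, Matrix.smul_mul, Matrix.trace_smul, det_St x ha]
  unfold St
  rw [Q_transpose, Q_mul, trace_Q]
  set Δ := (a + b * rr x) * d - c ^ 2 * rr x with hΔdef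
  have hd : Δ = (a + b * rr x) * d - c ^ 2 * rr x := rfl
  simp only [smul_eq_mul]
  field_simp
  rw [hd]
  ring

/-- positivity of structured matrices -/
lemma posDef_St (x : Fin (m + 1) → ℝ) {a b c d : ℝ} (ha : 0 < a) (hd : 0 < d)
    (hΔ : 0 < (a + b * rr x) * d - c ^ 2 * rr x) : (St x a b c d).PosDef := by
  have hsymm : (St x a b c d).IsHermitian := by
    unfold St
    rw [Matrix.IsHermitian, Matrix.conjTranspose_eq_transpose_of_trivial, Q_transpose]
  refine Matrix.PosDef.of_dotProduct_mulVec_pos hsymm ?_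
  intro z hz
  have hquad : star z ⬝ᵥ (St x a b c d).mulVec z =
      a * (z ⬝ᵥ z) + b * (xt x ⬝ᵥ z) ^ 2 + 2 * c * (xt x ⬝ᵥ z) * (ee ⬝ᵥ z) +
        (d - a) * (ee ⬝ᵥ z) ^ 2 := by
    unfold St Q
    simp only [Matrix.add_mulVec, Matrix.smul_mulVec, Matrix.one_mulVec, vecMulVec_mulVec,
      dotProduct_add, dotProduct_smul, star_trivial, smul_eq_mul]
    have e1 : z ⬝ᵥ xt x = xt x ⬝ᵥ z := dotProduct_comm _ _
    have e2 : z ⬝ᵥ ee = ee ⬝ᵥ z := dotProduct_comm _ _
    simp only [MulOpposite.smul_eq_mul_unop, MulOpposite.unop_op, e1, e2]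
    ring
  have hz0 : ee ⬝ᵥ z = z 0 := by simp [dotProduct, ee]
  set q := ∑ i, xt z i ^ 2 with hq
  have hzz : z ⬝ᵥ z = q + z 0 ^ 2 := by
    rw [hq, dotProduct]
    have : ∀ i, z i * z i = xt z i ^ 2 + (ee i * z 0) ^ 2 := by
      intro i
      by_cases h : i = 0
      · subst h; simp [xt, ee, pow_two]
      · simp [xt, ee, h, pow_two]
    simp_rw [this, Finset.sum_add_distrib]
    congr 1
    simp [ee]
  set μ := xt x ⬝ᵥ z with hμ
  have hcs : μ ^ 2 ≤ rr x * q := by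
    have h1 : μ = ∑ i, xt x i * xt z i := by
      rw [hμ, dotProduct]
      apply Finset.sum_congr rfl
      intro i _
      by_cases h : i = 0
      · simp [xt, h]
      · simp [xt, h]
    rw [h1, hq]
    exact Finset.sum_mul_sq_le_sq_mul_sq _ _ _
  have hq0 : 0 ≤ q := Finset.sum_nonneg fun i _ => sq_nonneg _
  have hr0 : 0 ≤ rr x := Finset.sum_nonneg fun i _ => sq_nonneg _
  rw [hquad, hz0, hzz]
  have hform : d * (a * (q + z 0 ^ 2) + b * μ ^ 2 + 2 * c * μ * z 0 + (d - a) * z 0 ^ 2) =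
      (d * z 0 + c * μ) ^ 2 + (a * d * q + (b * d - c ^ 2) * μ ^ 2) := by ring
  have hsecond : 0 ≤ a * d * q + (b * d - c ^ 2) * μ ^ 2 ∧
      (0 < q → 0 < a * d * q + (b * d - c ^ 2) * μ ^ 2) := by
    have had : 0 < a * d := mul_pos ha hd
    rcases le_or_gt 0 (b * d - c ^ 2) with h | h
    · have h1 : 0 ≤ (b * d - c ^ 2) * μ ^ 2 := mul_nonneg h (sq_nonneg _)
      constructor
      · have := mul_nonneg had.le hq0; linarith
      · intro hqp
        have := mul_pos had hqp; linarith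
    · have h1 : (b * d - c ^ 2) * (rr x * q) ≤ (b * d - c ^ 2) * μ ^ 2 :=
        mul_le_mul_of_nonpos_left hcs h.le
      have h2 : a * d * q + (b * d - c ^ 2) * (rr x * q) =
          ((a + b * rr x) * d - c ^ 2 * rr x) * q := by ring
      constructor
      · have := mul_nonneg hΔ.le hq0; linarith
      · intro hqp
        have := mul_pos hΔ hqp; linarith
  have hpos : 0 < (d * z 0 + c * μ) ^ 2 + (a * d * q + (b * d - c ^ 2) * μ ^ 2) := by
    rcases eq_or_lt_of_le hq0 with h | h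
    · -- q = 0
      have hμ0 : μ = 0 := by
        have : μ ^ 2 ≤ 0 := by rw [← h, mul_zero] at hcs; exact hcs
        exact pow_eq_zero_iff (two_ne_zero) |>.mp (le_antisymm this (sq_nonneg _))
      have hz0' : z 0 ≠ 0 := by
        intro h0
        apply hz
        have h5 : z ⬝ᵥ z = 0 := by rw [hzz, ← h, h0]; ring
        exact dotProduct_self_eq_zero.mp h5
      rw [← h, hμ0]
      have : 0 < (d * z 0) ^ 2 := by positivity
      simpa using this
    · have := hsecond.2 h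
      have := sq_nonneg (d * z 0 + c * μ)
      linarith
  rw [← hform] at hpos
  exact (mul_pos_iff_of_pos_left hd).mp hpos

end Vale.Agent.P252
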