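import Mathlib
import Vale.Agent.P252.Mat
import Vale.Agent.P252.Defs

namespace Vale.Agent.P252

open Matrix Finset

variable {m : ℕ}

/-- squared norm of the coordinates other than the zeroth one -/
noncomputable def RR (x : EuclideanSpace ℝ (Fin (m + 1))) : ℝ := rr x.ofLp

lemma RR_nonneg (x : EuclideanSpace ℝ (Fin (m + 1))) : 0 ≤ RR x := by
  unfold RR rr
  exact Finset.sum_nonneg fun _ _ => sq_nonneg _

/-- the coordinate functionals with the zeroth one removed -/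
noncomputable def xtL (i : Fin (m + 1)) : EuclideanSpace ℝ (Fin (m + 1)) →L[ℝ] ℝ :=
  if i = 0 then 0 else EuclideanSpace.proj i

lemma xtL_apply (i : Fin (m + 1)) (x : EuclideanSpace ℝ (Fin (m + 1))) :
    xtL i x = xt x.ofLp i := by
  unfold xtL xt
  by_cases h : i = 0 <;> simp [h]

lemma hasFDerivAt_xt (i : Fin (m + 1)) (x : EuclideanSpace ℝ (Fin (m + 1))) :
    HasFDerivAt (fun x : EuclideanSpace ℝ (Fin (m + 1)) => xt x.ofLp i) (xtL i) x := by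
  have h := (xtL i).hasFDerivAt (x := x)
  refine h.congr_of_eventuallyEq (Filter.Eventually.of_forall fun y => ?_)
  exact (xtL_apply i y).symm

lemma hasFDerivAt_RR (x : EuclideanSpace ℝ (Fin (m + 1))) :
    HasFDerivAt (RR : EuclideanSpace ℝ (Fin (m + 1)) → ℝ)
      (∑ i, (2 * xt x.ofLp i) • xtL i) x := by
  have h : HasFDerivAt (fun x : EuclideanSpace ℝ (Fin (m + 1)) => ∑ i, xt x.ofLp i ^ 2)
      (∑ i, (2 * xt x.ofLp i) • xtL i) x := by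
    apply HasFDerivAt.fun_sum
    intro i _
    have := (hasFDerivAt_xt i x).pow 2
    simpa using this
  exact h

lemma hasFDerivAt_zero (x : EuclideanSpace ℝ (Fin (m + 1))) :
    HasFDerivAt (fun x : EuclideanSpace ℝ (Fin (m + 1)) => x 0)
      (EuclideanSpace.proj (0 : Fin (m + 1)) : EuclideanSpace ℝ (Fin (m + 1)) →L[ℝ] ℝ) x :=
  (EuclideanSpace.proj (0 : Fin (m + 1)) :
    EuclideanSpace ℝ (Fin (m + 1)) →L[ℝ] ℝ).hasFDerivAt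

lemma xt_single (i j : Fin (m + 1)) :
    xt (EuclideanSpace.single j (1:ℝ)).ofLp i = (1 : Matrix (Fin (m + 1)) (Fin (m + 1)) ℝ) i j - ee i * ee j := by
  by_cases h : i = 0
  · subst h
    by_cases hj : j = 0
    · subst hj; simp [xt, ee]
    · simp [xt, ee, hj, Matrix.one_apply, Ne.symm hj]
  · by_cases hj : i = j
    · subst hj; simp [xt, ee, h]
    · simp [xt, ee, h, Matrix.one_apply, hj, Ne.symm hj]

lemma single_zero_apply (j : Fin (m + 1)) :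
    (EuclideanSpace.single j (1:ℝ) : EuclideanSpace ℝ (Fin (m + 1))) 0 = ee j := by
  by_cases hj : j = 0
  · subst hj; simp [ee]
  · simp [ee, hj, Ne.symm hj]

lemma proj_zero_single (j : Fin (m + 1)) :
    (EuclideanSpace.proj (0 : Fin (m + 1)) : EuclideanSpace ℝ (Fin (m + 1)) →L[ℝ] ℝ)
      (EuclideanSpace.single j (1:ℝ)) = ee j :=
  single_zero_apply j

/-- chain rule for functions of `(RR x, x 0)` -/
lemma hasFDerivAt_comp (Θ : ℝ → ℝ → ℝ) (θ₁ θ₂ : ℝ) (x : EuclideanSpace ℝ (Fin (m + 1)))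
    (h : HasFDerivAt (fun p : ℝ × ℝ => Θ p.1 p.2)
      (θ₁ • ContinuousLinearMap.fst ℝ ℝ ℝ + θ₂ • ContinuousLinearMap.snd ℝ ℝ ℝ) (RR x, x 0)) :
    HasFDerivAt (fun x : EuclideanSpace ℝ (Fin (m + 1)) => Θ (RR x) (x 0))
      (θ₁ • (∑ i, (2 * xt x.ofLp i) • xtL i) +
        θ₂ • (EuclideanSpace.proj (0 : Fin (m + 1)) : EuclideanSpace ℝ (Fin (m + 1)) →L[ℝ] ℝ)) x := by
  have h1 := (hasFDerivAt_RR x).prodMk (hasFDerivAt_zero x)
  have h2 := HasFDerivAt.comp x h h1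
  exact h2

lemma sum_xtL_single (x : EuclideanSpace ℝ (Fin (m + 1))) (j : Fin (m + 1)) :
    (∑ i, (2 * xt x.ofLp i) • xtL i : EuclideanSpace ℝ (Fin (m + 1)) →L[ℝ] ℝ)
      (EuclideanSpace.single j 1) = 2 * xt x.ofLp j := by
  rw [_root_.sum_apply]
  simp only [_root_.smul_apply, xtL_apply, xt_single, smul_eq_mul]
  have h1 : ∀ i, 2 * xt x.ofLp i * ((1 : Matrix (Fin (m + 1)) (Fin (m + 1)) ℝ) i j - ee i * ee j) =
      2 * xt x.ofLp i * (1 : Matrix (Fin (m + 1)) (Fin (m + 1)) ℝ) i j := by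
    intro i
    by_cases h : i = 0
    · simp [xt, h]
    · simp [ee, h]
  simp_rw [h1, Matrix.one_apply]
  simp

lemma pd_comp (Θ : ℝ → ℝ → ℝ) (θ₁ θ₂ : ℝ) (x : EuclideanSpace ℝ (Fin (m + 1)))
    (h : HasFDerivAt (fun p : ℝ × ℝ => Θ p.1 p.2)
      (θ₁ • ContinuousLinearMap.fst ℝ ℝ ℝ + θ₂ • ContinuousLinearMap.snd ℝ ℝ ℝ) (RR x, x 0))
    (j : Fin (m + 1)) :
    pd j (fun x : EuclideanSpace ℝ (Fin (m + 1)) => Θ (RR x) (x 0)) x =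
      2 * xt x.ofLp j * θ₁ + ee j * θ₂ := by
  unfold pd
  rw [(hasFDerivAt_comp Θ θ₁ θ₂ x h).fderiv]
  simp only [_root_.add_apply, _root_.smul_apply, sum_xtL_single,
    smul_eq_mul, proj_zero_single]
  ring

/-- the Hessian of a function of `(RR x, x 0)` -/
lemma hess_comp (Θ Θ₁ Θ₂ : ℝ → ℝ → ℝ) {ε : ℝ} (hε : 0 < ε)
    (h0 : ∀ ρ > -ε, ∀ T, HasFDerivAt (fun p : ℝ × ℝ => Θ p.1 p.2)
      (Θ₁ ρ T • ContinuousLinearMap.fst ℝ ℝ ℝ + Θ₂ ρ T • ContinuousLinearMap.snd ℝ ℝ ℝ) (ρ, T))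
    (x : EuclideanSpace ℝ (Fin (m + 1))) (θ₁₁ θ₁₂ θ₂₂ : ℝ)
    (h1 : HasFDerivAt (fun p : ℝ × ℝ => Θ₁ p.1 p.2)
      (θ₁₁ • ContinuousLinearMap.fst ℝ ℝ ℝ + θ₁₂ • ContinuousLinearMap.snd ℝ ℝ ℝ) (RR x, x 0))
    (h2 : HasFDerivAt (fun p : ℝ × ℝ => Θ₂ p.1 p.2)
      (θ₁₂ • ContinuousLinearMap.fst ℝ ℝ ℝ + θ₂₂ • ContinuousLinearMap.snd ℝ ℝ ℝ) (RR x, x 0)) :
    hess (fun x : EuclideanSpace ℝ (Fin (m + 1)) => Θ (RR x) (x 0)) x =
      St x.ofLp (2 * Θ₁ (RR x) (x 0)) (4 * θ₁₁) (2 * θ₁₂) θ₂₂ := by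
  have hpd : ∀ j, pd j (fun x : EuclideanSpace ℝ (Fin (m + 1)) => Θ (RR x) (x 0)) =
      fun x => 2 * xt x.ofLp j * Θ₁ (RR x) (x 0) + ee j * Θ₂ (RR x) (x 0) := by
    intro j
    funext z
    exact pd_comp Θ _ _ z (h0 (RR z) (by have := RR_nonneg z; linarith) (z 0)) j
  ext i j
  simp only [hess, Matrix.of_apply]
  rw [hpd j]
  unfold pd
  have hd1 := ((hasFDerivAt_xt j x).const_mul 2).mul (hasFDerivAt_comp Θ₁ _ _ x h1)
  have hd2 := (hasFDerivAt_comp Θ₂ _ _ x h2).const_mul (ee j)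
  have hd := hd1.add hd2
  have hfun : (fun x : EuclideanSpace ℝ (Fin (m + 1)) =>
      2 * xt x.ofLp j * Θ₁ (RR x) (x 0) + ee j * Θ₂ (RR x) (x 0)) =
      ((fun x : EuclideanSpace ℝ (Fin (m + 1)) => 2 * xt x.ofLp j) * fun x => Θ₁ (RR x) (x 0)) +
      fun x => ee j * Θ₂ (RR x) (x 0) := by
    funext z; rfl
  rw [hfun, hd.fderiv]
  simp only [_root_.add_apply, _root_.smul_apply, sum_xtL_single,
    smul_eq_mul, proj_zero_single, xtL_apply, xt_single]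
  simp only [St, Q, Matrix.add_apply, Matrix.smul_apply, vecMulVec_apply, smul_eq_mul]
  rw [show (1 : Matrix (Fin (m + 1)) (Fin (m + 1)) ℝ) j i =
    (1 : Matrix (Fin (m + 1)) (Fin (m + 1)) ℝ) i j by
      simp [Matrix.one_apply, eq_comm]]
  ring

/-- the two-variable function `(f ρ + T²)^κ ω(ρ)` -/
noncomputable def tv (f ω : ℝ → ℝ) (κ : ℝ) (ρ T : ℝ) : ℝ := (f ρ + T ^ 2) ^ κ * ω ρ

lemma hasFDerivAt_tv {f ω : ℝ → ℝ} {κ ρ T f₁ ω₁ : ℝ} (hf : HasDerivAt f f₁ ρ)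
    (hω : HasDerivAt ω ω₁ ρ) (hpos : 0 < f ρ) :
    HasFDerivAt (fun p : ℝ × ℝ => tv f ω κ p.1 p.2)
      ((κ * (f ρ + T ^ 2) ^ (κ - 1) * f₁ * ω ρ + (f ρ + T ^ 2) ^ κ * ω₁) •
          ContinuousLinearMap.fst ℝ ℝ ℝ +
        (2 * κ * T * (f ρ + T ^ 2) ^ (κ - 1) * ω ρ) • ContinuousLinearMap.snd ℝ ℝ ℝ) (ρ, T) := by
  have hv : 0 < f ρ + T ^ 2 := by positivity
  have h1 : HasFDerivAt (fun p : ℝ × ℝ => f p.1) (f₁ • ContinuousLinearMap.fst ℝ ℝ ℝ) (ρ, T) :=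
    HasDerivAt.comp_hasFDerivAt (x := (ρ, T)) (h₂ := f) (f := Prod.fst) hf hasFDerivAt_fst
  have h2 : HasFDerivAt (fun p : ℝ × ℝ => ω p.1) (ω₁ • ContinuousLinearMap.fst ℝ ℝ ℝ) (ρ, T) :=
    HasDerivAt.comp_hasFDerivAt (x := (ρ, T)) (h₂ := ω) (f := Prod.fst) hω hasFDerivAt_fst
  have h3 : HasFDerivAt (fun p : ℝ × ℝ => p.2 ^ 2)
      ((2 * T) • ContinuousLinearMap.snd ℝ ℝ ℝ) (ρ, T) := by
    have := (hasFDerivAt_snd (𝕜 := ℝ) (E := ℝ) (F := ℝ) (p := (ρ, T))).pow 2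
    simpa using this
  have h4 : HasFDerivAt (fun p : ℝ × ℝ => (f p.1 + p.2 ^ 2) ^ κ)
      ((κ * (f ρ + T ^ 2) ^ (κ - 1)) • (f₁ • ContinuousLinearMap.fst ℝ ℝ ℝ +
        (2 * T) • ContinuousLinearMap.snd ℝ ℝ ℝ)) (ρ, T) :=
    (h1.add h3).rpow_const (Or.inl hv.ne')
  have h5 := h4.mul h2
  unfold tv
  refine h5.congr_fderiv ?_
  ext <;> simp <;> ring

end Vale.Agent.P252
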