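import Mathlib
import Vale.Agent.P252.Defs

/-!
Graphs over all of `ℝⁿ` are Euclidean complete; the final contradiction with quadratic
polynomials.
-/

namespace Vale.Agent.P252

open Set Filter Topology MeasureTheory
open scoped ContDiff

variable {n : ℕ}

lemma graph_integrand_continuous {u : EuclideanSpace ℝ (Fin n) → ℝ} (hu : ContDiff ℝ 1 u)
    {γ : ℝ → EuclideanSpace ℝ (Fin n)} (hγ : ContDiff ℝ 1 γ) :
    Continuous (fun t => Real.sqrt (‖deriv γ t‖ ^ 2 + (fderiv ℝ u (γ t) (deriv γ t)) ^ 2)) := by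
  have h1 : Continuous (deriv γ) := hγ.continuous_deriv le_rfl
  have h2 : Continuous (fderiv ℝ u) := hu.continuous_fderiv one_ne_zero
  have h3 : Continuous (fun t => fderiv ℝ u (γ t) (deriv γ t)) :=
    (h2.comp hγ.continuous).clm_apply h1
  exact Real.continuous_sqrt.comp (((h1.norm).pow 2).add (h3.pow 2))

lemma norm_sub_le_graphLength {u : EuclideanSpace ℝ (Fin n) → ℝ} (hu : ContDiff ℝ 1 u)
    {γ : ℝ → EuclideanSpace ℝ (Fin n)} (hγ : ContDiff ℝ 1 γ) :
    ‖γ 1 - γ 0‖ ≤ graphLength u γ := by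
  have h1 : Continuous (deriv γ) := hγ.continuous_deriv le_rfl
  have h2 : ∫ t in (0:ℝ)..1, deriv γ t = γ 1 - γ 0 := by
    apply intervalIntegral.integral_deriv_eq_sub
    · intro x _
      exact (hγ.differentiable one_ne_zero) x
    · exact h1.intervalIntegrable _ _
  rw [← h2]
  refine le_trans (intervalIntegral.norm_integral_le_integral_norm zero_le_one) ?_
  unfold graphLength
  apply intervalIntegral.integral_mono_on zero_le_one
  · exact h1.norm.intervalIntegrable _ _
  · exact (graph_integrand_continuous hu hγ).intervalIntegrable _ _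
  · intro t _
    apply Real.le_sqrt_of_sq_le
    have := sq_nonneg (fderiv ℝ u (γ t) (deriv γ t))
    linarith

lemma norm_sub_le_graphDist {u : EuclideanSpace ℝ (Fin n) → ℝ} (hu : ContDiff ℝ 1 u)
    (x y : EuclideanSpace ℝ (Fin n)) : ‖y - x‖ ≤ graphDist univ u x y := by
  unfold graphDist
  apply le_csInf
  · refine ⟨_, fun t => x + t • (y - x), ?_, ?_, ?_, ?_, rfl⟩
    · fun_prop
    · simp
    · simp
    · intro t _; exact mem_univ _
  · rintro ℓ ⟨γ, hγ, h0, h1, -, rfl⟩
    rw [← h0, ← h1]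
    exact norm_sub_le_graphLength hu hγ

lemma graphDist_le {u : EuclideanSpace ℝ (Fin n) → ℝ} (hu : ContDiff ℝ 1 u)
    (x y : EuclideanSpace ℝ (Fin n)) {K : ℝ}
    (hK : ∀ t ∈ Icc (0:ℝ) 1, ‖fderiv ℝ u (x + t • (y - x))‖ ≤ K) :
    graphDist univ u x y ≤ Real.sqrt (1 + K ^ 2) * ‖y - x‖ := by
  set γ : ℝ → EuclideanSpace ℝ (Fin n) := fun t => x + t • (y - x) with hγdef
  have hγ : ContDiff ℝ 1 γ := by fun_prop
  have hd : ∀ t, deriv γ t = y - x := by
    intro t
    have h : HasDerivAt γ ((1:ℝ) • (y - x)) t :=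
      ((hasDerivAt_id t).smul_const (y - x)).const_add x
    rw [h.deriv, one_smul]
  have hlen : graphLength u γ ≤ Real.sqrt (1 + K ^ 2) * ‖y - x‖ := by
    unfold graphLength
    have h2 : ∫ t in (0:ℝ)..1, (Real.sqrt (1 + K ^ 2) * ‖y - x‖) =
        Real.sqrt (1 + K ^ 2) * ‖y - x‖ := by simp
    rw [← h2]
    apply intervalIntegral.integral_mono_on zero_le_one
    · exact (graph_integrand_continuous hu hγ).intervalIntegrable _ _
    · exact intervalIntegrable_const
    · intro t ht
      rw [hd t]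
      have h3 : |fderiv ℝ u (γ t) (y - x)| ≤ K * ‖y - x‖ := by
        have h4 := (fderiv ℝ u (γ t)).le_opNorm (y - x)
        have h5 := hK t ht
        rw [Real.norm_eq_abs] at h4
        exact h4.trans (mul_le_mul_of_nonneg_right h5 (norm_nonneg _))
      have h6 : (fderiv ℝ u (γ t) (y - x)) ^ 2 ≤ (K * ‖y - x‖) ^ 2 := by
        rw [← sq_abs]
        exact pow_le_pow_left₀ (abs_nonneg _) h3 2
      apply Real.sqrt_le_iff.mpr
      constructor
      · positivity
      · rw [mul_pow, Real.sq_sqrt (by positivity)]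
        nlinarith
  refine le_trans (csInf_le ?_ ?_) hlen
  · refine ⟨0, ?_⟩
    rintro ℓ ⟨γ', hγ', -, -, -, rfl⟩
    exact le_trans (norm_nonneg _) (norm_sub_le_graphLength hu hγ')
  · exact ⟨γ, hγ, by simp [hγdef], by simp [hγdef], fun t _ => mem_univ _, rfl⟩

/-- Every entire smooth graph is Euclidean complete. -/
theorem entire_complete {u : EuclideanSpace ℝ (Fin n) → ℝ} (hu : ContDiff ℝ ∞ u) :
    EuclideanComplete univ u := by
  have hu1 : ContDiff ℝ 1 u := hu.of_le (by exact_mod_cast le_top)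
  intro p _ hC
  have hcau : CauchySeq p := by
    rw [Metric.cauchySeq_iff]
    intro ε hε
    obtain ⟨N, hN⟩ := hC ε hε
    refine ⟨N, fun j hj k hk => ?_⟩
    have h1 := hN j hj k hk
    have h2 := norm_sub_le_graphDist hu1 (p j) (p k)
    rw [dist_comm, dist_eq_norm]
    linarith
  obtain ⟨x, hx⟩ := cauchySeq_tendsto_of_complete hcau
  refine ⟨x, mem_univ _, ?_⟩
  have hcont : Continuous (fderiv ℝ u) := hu1.continuous_fderiv one_ne_zero
  obtain ⟨K, hK⟩ : ∃ K, ∀ z ∈ Metric.closedBall x 1, ‖fderiv ℝ u z‖ ≤ K :=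
    (isCompact_closedBall x 1).exists_bound_of_continuousOn hcont.continuousOn
  have hev : ∀ᶠ k in atTop, p k ∈ Metric.closedBall x 1 :=
    hx.eventually (Metric.closedBall_mem_nhds x one_pos)
  have hlim : Tendsto (fun k => Real.sqrt (1 + K ^ 2) * ‖x - p k‖) atTop (𝓝 0) := by
    have h1 : Tendsto (fun k => x - p k) atTop (𝓝 (x - x)) := tendsto_const_nhds.sub hx
    have h2 := h1.norm.const_mul (Real.sqrt (1 + K ^ 2))
    simpa using h2
  refine squeeze_zero' ?_ ?_ hlim
  · exact Eventually.of_forall fun k =>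
      le_trans (norm_nonneg _) (norm_sub_le_graphDist hu1 (p k) x)
  · filter_upwards [hev] with k hk
    apply graphDist_le hu1
    intro t ht
    apply hK
    have hconv := convex_closedBall x (1:ℝ)
    have h1 := hconv.add_smul_sub_mem hk (Metric.mem_closedBall_self zero_le_one) ht
    exact h1

/-- A function which is `√(c + t²)` (with `c > 0`) along the zeroth coordinate axis is not a
quadratic polynomial. -/
theorem not_quadratic {m : ℕ} {u : EuclideanSpace ℝ (Fin (m + 1)) → ℝ} {c₀ : ℝ} (hc₀ : 0 < c₀)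
    (hu : ∀ t : ℝ, u (EuclideanSpace.single 0 t) = Real.sqrt (c₀ + t ^ 2))
    (A : Matrix (Fin (m + 1)) (Fin (m + 1)) ℝ) (b : Fin (m + 1) → ℝ) (c : ℝ) :
    ¬ IsQuadraticWith A b c u := by
  intro h
  have key : ∀ t : ℝ, Real.sqrt (c₀ + t ^ 2) = (1 / 2) * (t * A 0 0 * t) + b 0 * t + c := by
    intro t
    have h1 := h (EuclideanSpace.single 0 t)
    rw [hu t] at h1
    rw [h1]
    congr 2
    · congr 1
      rw [Finset.sum_eq_single 0]
      · rw [Finset.sum_eq_single 0]
        · simp
        · intro j _ hj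
          simp [hj]
        · simp
      · intro i _ hi
        simp [hi]
      · simp
    · rw [Finset.sum_eq_single 0]
      · simp
      · intro i _ hi
        simp [hi]
      · simp
  have hsq : ∀ t : ℝ, c₀ + t ^ 2 = ((1 / 2) * (t * A 0 0 * t) + b 0 * t + c) ^ 2 := by
    intro t
    rw [← key t, Real.sq_sqrt (by positivity)]
  have e0 := hsq 0
  have e1 := key 1
  have e1' := key (-1)
  have hb : b 0 = 0 := by
    have : (-1:ℝ) ^ 2 = 1 ^ 2 := by norm_num
    rw [this] at e1'
    linarith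
  have e2 := hsq 1
  have e3 := hsq 2
  rw [hb] at e2 e3
  simp only [mul_zero, zero_mul, zero_add, add_zero, one_mul, mul_one, ne_eq,
    OfNat.ofNat_ne_zero, not_false_eq_true, zero_pow, one_pow] at e0 e2 e3
  have hA : A 0 0 = 0 := by
    have h5 : (A 0 0) ^ 2 = 0 := by nlinarith
    exact pow_eq_zero_iff (two_ne_zero) |>.mp h5
  rw [hA] at e2
  nlinarith

end Vale.Agent.P252
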