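import Mathlib
import Vale.Agent.P252.Mat
import Vale.Agent.P252.Calc

namespace Vale.Agent.P252

open Matrix Finset

variable {m : ℕ}

/-- Hessian of `(f ρ + T²)^κ ω(ρ)` -/
lemma hess_tv {f f₁ f₂ ω ω₁ ω₂ : ℝ → ℝ} {κ ε : ℝ} (hε : 0 < ε)
    (hf : ∀ ρ > -ε, HasDerivAt f (f₁ ρ) ρ) (hf₁ : ∀ ρ > -ε, HasDerivAt f₁ (f₂ ρ) ρ)
    (hω : ∀ ρ > -ε, HasDerivAt ω (ω₁ ρ) ρ) (hω₁ : ∀ ρ > -ε, HasDerivAt ω₁ (ω₂ ρ) ρ)
    (hpos : ∀ ρ > -ε, 0 < f ρ) (x : EuclideanSpace ℝ (Fin (m + 1))) :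
    hess (fun x : EuclideanSpace ℝ (Fin (m + 1)) => tv f ω κ (RR x) (x 0)) x =
      St x.ofLp
        (2 * (κ * (f (RR x) + (x 0) ^ 2) ^ (κ - 1) * f₁ (RR x) * ω (RR x) +
          (f (RR x) + (x 0) ^ 2) ^ κ * ω₁ (RR x)))
        (4 * (κ * (κ - 1) * (f (RR x) + (x 0) ^ 2) ^ (κ - 2) * f₁ (RR x) ^ 2 * ω (RR x) +
          κ * (f (RR x) + (x 0) ^ 2) ^ (κ - 1) *
            (f₂ (RR x) * ω (RR x) + 2 * f₁ (RR x) * ω₁ (RR x)) +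
          (f (RR x) + (x 0) ^ 2) ^ κ * ω₂ (RR x)))
        (2 * (2 * κ * (κ - 1) * (x 0) * (f (RR x) + (x 0) ^ 2) ^ (κ - 2) * f₁ (RR x) * ω (RR x) +
          2 * κ * (x 0) * (f (RR x) + (x 0) ^ 2) ^ (κ - 1) * ω₁ (RR x)))
        (2 * κ * (f (RR x) + (x 0) ^ 2) ^ (κ - 1) * ω (RR x) +
          4 * κ * (κ - 1) * (x 0) ^ 2 * (f (RR x) + (x 0) ^ 2) ^ (κ - 2) * ω (RR x)) := by
  have hR : RR x > -ε := by have := RR_nonneg x; linarith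
  have hexp : κ - 1 - 1 = κ - 2 := by ring
  refine hess_comp (tv f ω κ)
    (fun ρ T => κ * (f ρ + T ^ 2) ^ (κ - 1) * f₁ ρ * ω ρ + (f ρ + T ^ 2) ^ κ * ω₁ ρ)
    (fun ρ T => 2 * κ * T * (f ρ + T ^ 2) ^ (κ - 1) * ω ρ) hε ?_ x _ _ _ ?_ ?_
  · intro ρ hρ T
    exact hasFDerivAt_tv (hf ρ hρ) (hω ρ hρ) (hpos ρ hρ)
  · have hA : HasDerivAt (fun ρ => κ * f₁ ρ * ω ρ)
        (κ * f₂ (RR x) * ω (RR x) + κ * f₁ (RR x) * ω₁ (RR x)) (RR x) :=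
      ((hf₁ _ hR).const_mul κ).mul (hω _ hR)
    have h1 := hasFDerivAt_tv (κ := κ - 1) (T := x 0) (hf _ hR) hA (hpos _ hR)
    have h2 := hasFDerivAt_tv (κ := κ) (T := x 0) (hf _ hR) (hω₁ _ hR) (hpos _ hR)
    have h3 := h1.add h2
    have hfun : (fun p : ℝ × ℝ => κ * (f p.1 + p.2 ^ 2) ^ (κ - 1) * f₁ p.1 * ω p.1 +
        (f p.1 + p.2 ^ 2) ^ κ * ω₁ p.1) =
        (fun p : ℝ × ℝ => tv f (fun ρ => κ * f₁ ρ * ω ρ) (κ - 1) p.1 p.2) +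
        fun p : ℝ × ℝ => tv f ω₁ κ p.1 p.2 := by
      funext p
      simp only [tv, Pi.add_apply]
      ring
    rw [hfun]
    refine h3.congr_fderiv ?_
    rw [hexp]
    ext <;> simp <;> ring
  · have hA : HasDerivAt (fun ρ => 2 * κ * ω ρ) (2 * κ * ω₁ (RR x)) (RR x) :=
      (hω _ hR).const_mul _
    have h1 := hasFDerivAt_tv (κ := κ - 1) (T := x 0) (hf _ hR) hA (hpos _ hR)
    have h2 := (hasFDerivAt_snd (𝕜 := ℝ) (E := ℝ) (F := ℝ) (p := (RR x, x 0))).mul h1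
    have hfun : (fun p : ℝ × ℝ => 2 * κ * p.2 * (f p.1 + p.2 ^ 2) ^ (κ - 1) * ω p.1) =
        Prod.snd * fun p : ℝ × ℝ => tv f (fun ρ => 2 * κ * ω ρ) (κ - 1) p.1 p.2 := by
      funext p
      simp only [tv, Pi.mul_apply]
      ring
    rw [hfun]
    refine h2.congr_fderiv ?_
    rw [hexp]
    ext <;> simp [tv] <;> ring

/-- the function `u = sqrt (f(|x'|²) + x₀²)` -/
noncomputable def uu (f : ℝ → ℝ) (x : EuclideanSpace ℝ (Fin (m + 1))) : ℝ :=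
  Real.sqrt (f (RR x) + (x 0) ^ 2)

lemma uu_eq (f : ℝ → ℝ) :
    (uu f : EuclideanSpace ℝ (Fin (m + 1)) → ℝ) =
      fun x => tv f (fun _ => 1) (1 / 2) (RR x) (x 0) := by
  funext x
  simp only [uu, tv, mul_one, Real.sqrt_eq_rpow]

/-- Hessian of `u` -/
lemma hess_uu {f f₁ f₂ : ℝ → ℝ} {ε : ℝ} (hε : 0 < ε)
    (hf : ∀ ρ > -ε, HasDerivAt f (f₁ ρ) ρ) (hf₁ : ∀ ρ > -ε, HasDerivAt f₁ (f₂ ρ) ρ)
    (hpos : ∀ ρ > -ε, 0 < f ρ) (x : EuclideanSpace ℝ (Fin (m + 1))) :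
    hess (uu f) x =
      St x.ofLp
        (f₁ (RR x) * (f (RR x) + (x 0) ^ 2) * (f (RR x) + (x 0) ^ 2) ^ (-(3:ℝ) / 2))
        ((2 * f₂ (RR x) * (f (RR x) + (x 0) ^ 2) - f₁ (RR x) ^ 2) *
          (f (RR x) + (x 0) ^ 2) ^ (-(3:ℝ) / 2))
        (-(f₁ (RR x)) * x 0 * (f (RR x) + (x 0) ^ 2) ^ (-(3:ℝ) / 2))
        (f (RR x) * (f (RR x) + (x 0) ^ 2) ^ (-(3:ℝ) / 2)) := by
  have hR : RR x > -ε := by have := RR_nonneg x; linarith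
  have hv : 0 < f (RR x) + (x 0) ^ 2 := by have := hpos _ hR; positivity
  rw [uu_eq, hess_tv hε hf hf₁ (fun ρ _ => hasDerivAt_const ρ 1) (fun ρ _ => hasDerivAt_const ρ 0)
    hpos x]
  have e1 : (f (RR x) + (x 0) ^ 2) ^ ((1:ℝ) / 2 - 1) =
      (f (RR x) + (x 0) ^ 2) * (f (RR x) + (x 0) ^ 2) ^ (-(3:ℝ) / 2) := by
    rw [mul_comm, ← Real.rpow_add_one hv.ne']
    congr 1; norm_num
  have e2 : ((1:ℝ) / 2 - 2) = -(3:ℝ) / 2 := by norm_num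
  rw [e1, e2]
  congr 1 <;> ring

/-- the structural quantity -/
noncomputable def D0 (f f₁ f₂ : ℝ → ℝ) (ρ : ℝ) : ℝ :=
  f ρ * f₁ ρ + ρ * (2 * f ρ * f₂ ρ - f₁ ρ ^ 2)

lemma delta_uu (f f₁ f₂ : ℝ → ℝ) (x : EuclideanSpace ℝ (Fin (m + 1))) :
    ((f₁ (RR x) * (f (RR x) + (x 0) ^ 2) * (f (RR x) + (x 0) ^ 2) ^ (-(3:ℝ) / 2)) +
        ((2 * f₂ (RR x) * (f (RR x) + (x 0) ^ 2) - f₁ (RR x) ^ 2) *
          (f (RR x) + (x 0) ^ 2) ^ (-(3:ℝ) / 2)) * rr x.ofLp) *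
        (f (RR x) * (f (RR x) + (x 0) ^ 2) ^ (-(3:ℝ) / 2)) -
      (-(f₁ (RR x)) * x 0 * (f (RR x) + (x 0) ^ 2) ^ (-(3:ℝ) / 2)) ^ 2 * rr x.ofLp =
    ((f (RR x) + (x 0) ^ 2) ^ (-(3:ℝ) / 2)) ^ 2 * (f (RR x) + (x 0) ^ 2) * D0 f f₁ f₂ (RR x) := by
  have : rr x.ofLp = RR x := rfl
  rw [this]
  unfold D0
  ring

/-- determinant of the Hessian of `u` -/
lemma det_hess_uu {f f₁ f₂ : ℝ → ℝ} {ε : ℝ} (hε : 0 < ε)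
    (hf : ∀ ρ > -ε, HasDerivAt f (f₁ ρ) ρ) (hf₁ : ∀ ρ > -ε, HasDerivAt f₁ (f₂ ρ) ρ)
    (hpos : ∀ ρ > -ε, 0 < f ρ) (hpos₁ : ∀ ρ > -ε, 0 < f₁ ρ) (hm : 1 ≤ m)
    (x : EuclideanSpace ℝ (Fin (m + 1))) :
    (hess (uu f) x).det =
      (f (RR x) + (x 0) ^ 2) ^ (-((m:ℝ) + 3) / 2) *
        (f₁ (RR x) ^ (m - 1) * D0 f f₁ f₂ (RR x)) := by
  have hR : RR x > -ε := by have := RR_nonneg x; linarith
  have hv : 0 < f (RR x) + (x 0) ^ 2 := by have := hpos _ hR; positivity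
  have hX : 0 < (f (RR x) + (x 0) ^ 2) ^ (-(3:ℝ) / 2) := Real.rpow_pos_of_pos hv _
  have ha : 0 < f₁ (RR x) * (f (RR x) + (x 0) ^ 2) * (f (RR x) + (x 0) ^ 2) ^ (-(3:ℝ) / 2) := by
    have := hpos₁ _ hR
    positivity
  rw [hess_uu hε hf hf₁ hpos x, det_St _ ha.ne', delta_uu f f₁ f₂ x]
  obtain ⟨j, rfl⟩ : ∃ j, m = j + 1 := ⟨m - 1, by omega⟩
  simp only [Nat.add_sub_cancel]
  set v := f (RR x) + (x 0) ^ 2 with hvdef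
  set X := v ^ (-(3:ℝ) / 2) with hXdef
  set F := f₁ (RR x) with hF
  have hF0 : F ≠ 0 := (hpos₁ _ hR).ne'
  have hpow : v ^ (-(((j + 1 : ℕ):ℝ) + 3) / 2) = (v * X) ^ j * (X ^ 2 * v) := by
    have h1 : v * X = v ^ (-(1:ℝ) / 2) := by
      rw [hXdef, mul_comm, ← Real.rpow_add_one hv.ne']; congr 1; norm_num
    have h2 : X ^ 2 * v = v ^ (-(2:ℝ)) := by
      rw [hXdef, ← Real.rpow_natCast, ← Real.rpow_mul hv.le, ← Real.rpow_add_one hv.ne']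
      congr 1; norm_num
    rw [h1, h2, ← Real.rpow_natCast, ← Real.rpow_mul hv.le, ← Real.rpow_add hv]
    congr 1
    push_cast
    ring
  rw [hpow]
  field_simp
  ring_nf

/-- the weight `(det D²u)^{-(n+1)/(n+2)}` -/
lemma weight_uu {f f₁ f₂ ω : ℝ → ℝ} {ε : ℝ} (hε : 0 < ε)
    (hf : ∀ ρ > -ε, HasDerivAt f (f₁ ρ) ρ) (hf₁ : ∀ ρ > -ε, HasDerivAt f₁ (f₂ ρ) ρ)
    (hpos : ∀ ρ > -ε, 0 < f ρ) (hpos₁ : ∀ ρ > -ε, 0 < f₁ ρ)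
    (hD : ∀ ρ > -ε, 0 < D0 f f₁ f₂ ρ) (hm : 1 ≤ m)
    (hω : ∀ ρ > -ε, ω ρ = (f₁ ρ ^ (m - 1) * D0 f f₁ f₂ ρ) ^ (-(((m:ℝ) + 2) / (m + 3))))
    (x : EuclideanSpace ℝ (Fin (m + 1))) :
    (hess (uu f) x).det ^ (-(((m:ℝ) + 2) / (m + 3))) =
      tv f ω (((m:ℝ) + 2) / 2) (RR x) (x 0) := by
  have hR : RR x > -ε := by have := RR_nonneg x; linarith
  have hv : 0 < f (RR x) + (x 0) ^ 2 := by have := hpos _ hR; positivity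
  have h1 := hpos₁ _ hR
  have h2 := hD _ hR
  rw [det_hess_uu hε hf hf₁ hpos hpos₁ hm x, Real.mul_rpow (Real.rpow_nonneg hv.le _)
    (by positivity), ← Real.rpow_mul hv.le, tv, hω _ hR]
  congr 2
  have : (m:ℝ) + 3 ≠ 0 := by positivity
  field_simp

lemma posDef_hess_uu {f f₁ f₂ : ℝ → ℝ} {ε : ℝ} (hε : 0 < ε)
    (hf : ∀ ρ > -ε, HasDerivAt f (f₁ ρ) ρ) (hf₁ : ∀ ρ > -ε, HasDerivAt f₁ (f₂ ρ) ρ)
    (hpos : ∀ ρ > -ε, 0 < f ρ) (hpos₁ : ∀ ρ > -ε, 0 < f₁ ρ)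
    (hD : ∀ ρ > -ε, 0 < D0 f f₁ f₂ ρ)
    (x : EuclideanSpace ℝ (Fin (m + 1))) : (hess (uu f) x).PosDef := by
  have hR : RR x > -ε := by have := RR_nonneg x; linarith
  have h0 := hpos _ hR
  have hv : 0 < f (RR x) + (x 0) ^ 2 := by positivity
  have h1 := hpos₁ _ hR
  have h2 := hD _ hR
  rw [hess_uu hε hf hf₁ hpos x]
  refine posDef_St _ (by positivity) (by positivity) ?_
  rw [delta_uu f f₁ f₂ x]
  positivity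

/-- the affine maximal equation for `u` follows from one linear ordinary differential equation -/
lemma am_uu {f f₁ f₂ ω ω₁ ω₂ : ℝ → ℝ} {ε : ℝ} (hε : 0 < ε)
    (hf : ∀ ρ > -ε, HasDerivAt f (f₁ ρ) ρ) (hf₁ : ∀ ρ > -ε, HasDerivAt f₁ (f₂ ρ) ρ)
    (hωd : ∀ ρ > -ε, HasDerivAt ω (ω₁ ρ) ρ) (hωd₁ : ∀ ρ > -ε, HasDerivAt ω₁ (ω₂ ρ) ρ)
    (hpos : ∀ ρ > -ε, 0 < f ρ) (hpos₁ : ∀ ρ > -ε, 0 < f₁ ρ)
    (hD : ∀ ρ > -ε, 0 < D0 f f₁ f₂ ρ) (hm : 1 ≤ m)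
    (hω : ∀ ρ > -ε, ω ρ = (f₁ ρ ^ (m - 1) * D0 f f₁ f₂ ρ) ^ (-(((m:ℝ) + 2) / (m + 3))))
    (hode : ∀ ρ > -ε, 2 * f ρ * f₁ ρ * (ω₁ ρ + 2 * ρ * ω₂ ρ) +
      (2 * ((m:ℝ) - 1) * f ρ * (f₁ ρ + 2 * ρ * f₂ ρ) + 2 * (m + 5) * ρ * f₁ ρ ^ 2) * ω₁ ρ +
      (m + 1) * (m + 2) * (f₁ ρ + 2 * ρ * f₂ ρ) * f₁ ρ * ω ρ = 0)
    (x : EuclideanSpace ℝ (Fin (m + 1))) :
    ∑ i, ∑ j, (hess (uu f) x).adjugate i j *
      hess (fun x : EuclideanSpace ℝ (Fin (m + 1)) =>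
        (hess (uu f) x).det ^ (-(((m:ℝ) + 2) / (m + 3)))) x i j = 0 := by
  have hR : RR x > -ε := by have := RR_nonneg x; linarith
  have h0 := hpos _ hR
  have hv : 0 < f (RR x) + (x 0) ^ 2 := by positivity
  have h1 := hpos₁ _ hR
  have h2 := hD _ hR
  have hX : 0 < (f (RR x) + (x 0) ^ 2) ^ (-(3:ℝ) / 2) := Real.rpow_pos_of_pos hv _
  have hfun : (fun x : EuclideanSpace ℝ (Fin (m + 1)) =>
        (hess (uu f) x).det ^ (-(((m:ℝ) + 2) / (m + 3)))) =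
      fun x : EuclideanSpace ℝ (Fin (m + 1)) => tv f ω (((m:ℝ) + 2) / 2) (RR x) (x 0) := by
    funext z
    exact weight_uu hε hf hf₁ hpos hpos₁ hD hm hω z
  rw [hfun, hess_tv hε hf hf₁ hωd hωd₁ hpos x, hess_uu hε hf hf₁ hpos x]
  rw [sum_adjugate]
  · have hrr : rr x.ofLp = RR x := rfl
    rw [hrr]
    have hk1 : (f (RR x) + (x 0) ^ 2) ^ (((m:ℝ) + 2) / 2 - 1) =
        (f (RR x) + (x 0) ^ 2) ^ (((m:ℝ) + 2) / 2 - 2) * (f (RR x) + (x 0) ^ 2) := by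
      rw [← Real.rpow_add_one hv.ne']; congr 1; ring
    have hk0 : (f (RR x) + (x 0) ^ 2) ^ (((m:ℝ) + 2) / 2) =
        (f (RR x) + (x 0) ^ 2) ^ (((m:ℝ) + 2) / 2 - 2) * (f (RR x) + (x 0) ^ 2) ^ 2 := by
      rw [← Real.rpow_add_natCast hv.ne']; congr 1; push_cast; ring
    rw [hk0, hk1]
    set v := f (RR x) + (x 0) ^ 2 with hvdef
    set X := v ^ (-(3:ℝ) / 2) with hXdef
    set Y := v ^ (((m:ℝ) + 2) / 2 - 2) with hYdef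
    have hodeR := hode _ hR
    set F := f (RR x)
    set F1 := f₁ (RR x)
    set F2 := f₂ (RR x)
    set W := ω (RR x)
    set W1 := ω₁ (RR x)
    set W2 := ω₂ (RR x)
    set ρ := RR x
    set T := x 0
    apply mul_eq_zero_of_right
    have hF : F = v - T ^ 2 := by rw [hvdef]; ring
    clear_value F F1 F2 W W1 W2 v X Y
    subst hvdef
    linear_combination (X ^ 2 * Y * (F + T ^ 2) ^ 3) * hodeR
  · positivity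
  · rw [delta_uu f f₁ f₂ x]
    positivity

end Vale.Agent.P252
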