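import Mathlib
import Vale.Agent.P252.Pde

namespace Vale.Agent.P252

open Matrix Finset Set
open scoped ContDiff Topology

variable {m : ℕ}

/-- primitive on a half line -/
lemma hasDerivAt_primitive {ε : ℝ} (hε : 0 < ε) {g : ℝ → ℝ} (hg : ContinuousOn g (Ioi (-ε)))
    {ρ : ℝ} (hρ : ρ > -ε) : HasDerivAt (fun r => ∫ t in (0:ℝ)..r, g t) (g ρ) ρ := by
  have hsub : uIcc 0 ρ ⊆ Ioi (-ε) := by
    intro z hz
    rw [Set.mem_uIcc] at hz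
    change -ε < z
    rcases hz with h | h <;> linarith [h.1, h.2]
  have hint : IntervalIntegrable g MeasureTheory.volume 0 ρ :=
    (hg.mono hsub).intervalIntegrable
  have hnhds : Ioi (-ε) ∈ 𝓝 ρ := isOpen_Ioi.mem_nhds hρ
  exact intervalIntegral.integral_hasDerivAt_right hint
    (hg.stronglyMeasurableAtFilter isOpen_Ioi ρ hρ) (hg.continuousAt hnhds)

lemma contDiffOn_primitive {ε : ℝ} (hε : 0 < ε) {g : ℝ → ℝ}
    (hg : ContDiffOn ℝ ∞ g (Ioi (-ε))) :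
    ContDiffOn ℝ ∞ (fun r => ∫ t in (0:ℝ)..r, g t) (Ioi (-ε)) := by
  rw [contDiffOn_infty_iff_deriv_of_isOpen isOpen_Ioi]
  constructor
  · intro ρ hρ
    exact (hasDerivAt_primitive hε hg.continuousOn hρ).differentiableAt.differentiableWithinAt
  · refine hg.congr fun ρ hρ => ?_
    exact (hasDerivAt_primitive hε hg.continuousOn hρ).deriv

/-- The algebraic identity: the first order system for `(y, s)` gives the linear equation for the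
weight. -/
lemma ode_identity {n y s s' ρ lam lam' : ℝ} (hy : 0 < y) (hH : 0 < (n - 1) * y + 2 * ρ)
    (hode : (s + 2 * ρ * s') * (2 * y * ((n - 1) * y + 2 * ρ)) =
      (y + ρ * (2 * s - 1)) * (n * ((n + 2) - 2 * (n - 1) * s) * y + 8 * ρ * s))
    (hlam : lam = (n + 1) * (n * y + 4 * ρ * s) / (2 * y * ((n - 1) * y + 2 * ρ)))
    (hlam' : lam' = ((n + 1) * (n * (1 - s) + 4 * s + 4 * ρ * s') *
        (2 * y * ((n - 1) * y + 2 * ρ)) - (n + 1) * (n * y + 4 * ρ * s) *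
        (2 * (1 - s) * ((n - 1) * y + 2 * ρ) + 2 * y * ((n - 1) * (1 - s) + 2))) /
        (2 * y * ((n - 1) * y + 2 * ρ)) ^ 2) :
    2 * (-lam + 2 * ρ * (lam ^ 2 - lam')) +
      (2 * (n - 2) * (y + 2 * ρ * s) / y + 2 * (n + 4) * ρ / y) * (-lam) +
      n * (n + 1) * (y + 2 * ρ * s) / y ^ 2 = 0 := by
  set H := (n - 1) * y + 2 * ρ with hHdef
  have hd : 2 * y * H ≠ 0 := by positivity
  rw [hlam, hlam']
  have hy0 := hy.ne'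
  have hH0 := hH.ne'
  field_simp
  rw [hHdef] at hode ⊢
  linear_combination (-(2:ℝ) * (n + 1) * ρ) * hode

/-- From a solution `(y, s)` of the first order system one gets a solution `u` of the affine maximal
equation. -/
theorem exists_of_ode {ε : ℝ} (hε : 0 < ε) (hm : 1 ≤ m) {y s : ℝ → ℝ}
    (hy : ContDiffOn ℝ ∞ y (Ioi (-ε)))
    (h : ∀ ρ > -ε, 0 < y ρ ∧ 0 < y ρ + ρ * (2 * s ρ - 1) ∧
      0 < (((m + 1 : ℕ) : ℝ) - 1) * y ρ + 2 * ρ ∧ HasDerivAt y (1 - s ρ) ρ ∧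
      ∃ s', HasDerivAt s s' ρ ∧
        (s ρ + 2 * ρ * s') * (2 * y ρ * ((((m + 1 : ℕ) : ℝ) - 1) * y ρ + 2 * ρ)) =
          (y ρ + ρ * (2 * s ρ - 1)) *
            (((m + 1 : ℕ) : ℝ) * ((((m + 1 : ℕ) : ℝ) + 2) - 2 * (((m + 1 : ℕ) : ℝ) - 1) * s ρ) *
              y ρ + 8 * ρ * s ρ)) :
    ∃ f : ℝ → ℝ, ContDiffOn ℝ ∞ f (Ioi (-ε)) ∧ (∀ ρ > -ε, 0 < f ρ) ∧
      ∀ x : EuclideanSpace ℝ (Fin (m + 1)), (hess (uu f) x).PosDef ∧
        ∑ i, ∑ j, (hess (uu f) x).adjugate i j *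
          hess (fun x : EuclideanSpace ℝ (Fin (m + 1)) =>
            (hess (uu f) x).det ^ (-(((m:ℝ) + 2) / (m + 3)))) x i j = 0 := by
  have hn : ((m + 1 : ℕ) : ℝ) = (m:ℝ) + 1 := by push_cast; ring
  rw [hn] at h
  have hpos_y : ∀ ρ > -ε, 0 < y ρ := fun ρ hρ => (h ρ hρ).1
  have hinv : ContDiffOn ℝ ∞ (fun ρ => (y ρ)⁻¹) (Ioi (-ε)) :=
    hy.inv fun ρ hρ => (hpos_y ρ hρ).ne'
  have hI := contDiffOn_primitive hε hinv
  obtain ⟨f, hfdef⟩ : ∃ f : ℝ → ℝ, f = fun ρ => Real.exp (∫ t in (0:ℝ)..ρ, (y t)⁻¹) := ⟨_, rfl⟩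
  have hfpos : ∀ ρ, 0 < f ρ := by intro ρ; rw [hfdef]; exact Real.exp_pos _
  have hfd : ∀ ρ > -ε, HasDerivAt f (f ρ / y ρ) ρ := by
    intro ρ hρ
    have h1 := (hasDerivAt_primitive hε hinv.continuousOn hρ).exp
    rw [hfdef]
    exact h1
  have hyd : ∀ ρ > -ε, HasDerivAt y (1 - s ρ) ρ := fun ρ hρ => (h ρ hρ).2.2.2.1
  -- choose the derivative of `s`
  have hs' : ∀ ρ > -ε, HasDerivAt s (deriv s ρ) ρ ∧
      (s ρ + 2 * ρ * deriv s ρ) * (2 * y ρ * (((m:ℝ) + 1 - 1) * y ρ + 2 * ρ)) =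
          (y ρ + ρ * (2 * s ρ - 1)) *
            (((m:ℝ) + 1) * (((m:ℝ) + 1 + 2) - 2 * ((m:ℝ) + 1 - 1) * s ρ) *
              y ρ + 8 * ρ * s ρ) := by
    intro ρ hρ
    obtain ⟨s', h1, h2⟩ := (h ρ hρ).2.2.2.2
    rw [h1.deriv]
    exact ⟨h1, h2⟩
  obtain ⟨f₁, hf₁def⟩ : ∃ f₁ : ℝ → ℝ, f₁ = fun ρ => f ρ / y ρ := ⟨_, rfl⟩
  obtain ⟨f₂, hf₂def⟩ : ∃ f₂ : ℝ → ℝ, f₂ = fun ρ => f ρ * s ρ / y ρ ^ 2 := ⟨_, rfl⟩
  have hf₁d : ∀ ρ > -ε, HasDerivAt f₁ (f₂ ρ) ρ := by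
    intro ρ hρ
    have hy0 := (hpos_y ρ hρ).ne'
    have h1 := (hfd ρ hρ).fun_div (hyd ρ hρ) hy0
    rw [hf₁def, hf₂def]
    refine h1.congr_deriv ?_
    beta_reduce
    field_simp
    ring
  have hf₁pos : ∀ ρ > -ε, 0 < f₁ ρ := by
    intro ρ hρ
    rw [hf₁def]
    exact div_pos (hfpos ρ) (hpos_y ρ hρ)
  have hD0 : ∀ ρ > -ε, D0 f f₁ f₂ ρ = (f ρ / y ρ) ^ 2 * (y ρ + ρ * (2 * s ρ - 1)) := by
    intro ρ hρ
    have hy0 := (hpos_y ρ hρ).ne'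
    rw [D0, hf₁def, hf₂def]
    field_simp
  obtain ⟨Ψ, hΨdef⟩ : ∃ Ψ : ℝ → ℝ,
      Ψ = fun ρ => (f ρ / y ρ) ^ (m + 1) * (y ρ + ρ * (2 * s ρ - 1)) := ⟨_, rfl⟩
  have hΨpos : ∀ ρ > -ε, 0 < Ψ ρ := by
    intro ρ hρ
    rw [hΨdef]
    have h1 := hfpos ρ
    have h2 := hpos_y ρ hρ
    have h3 := (h ρ hρ).2.1
    positivity
  obtain ⟨lam, hlamdef⟩ : ∃ lam : ℝ → ℝ, lam = fun ρ =>
      ((m:ℝ) + 1 + 1) * (((m:ℝ) + 1) * y ρ + 4 * ρ * s ρ) /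
        (2 * y ρ * (((m:ℝ) + 1 - 1) * y ρ + 2 * ρ)) := ⟨_, rfl⟩
  obtain ⟨lam', hlam'def⟩ : ∃ lam' : ℝ → ℝ, lam' = fun ρ =>
      (((m:ℝ) + 1 + 1) * (((m:ℝ) + 1) * (1 - s ρ) + 4 * s ρ + 4 * ρ * deriv s ρ) *
        (2 * y ρ * (((m:ℝ) + 1 - 1) * y ρ + 2 * ρ)) -
        ((m:ℝ) + 1 + 1) * (((m:ℝ) + 1) * y ρ + 4 * ρ * s ρ) *
        (2 * (1 - s ρ) * (((m:ℝ) + 1 - 1) * y ρ + 2 * ρ) +
          2 * y ρ * (((m:ℝ) + 1 - 1) * (1 - s ρ) + 2))) /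
        (2 * y ρ * (((m:ℝ) + 1 - 1) * y ρ + 2 * ρ)) ^ 2 := ⟨_, rfl⟩
  have hlamd : ∀ ρ > -ε, HasDerivAt lam (lam' ρ) ρ := by
    intro ρ hρ
    have hy0 := (hpos_y ρ hρ)
    have hH0 := (h ρ hρ).2.2.1
    have e1 : HasDerivAt (fun ρ : ℝ => 4 * ρ) 4 ρ := by
      simpa using (hasDerivAt_id ρ).const_mul (4:ℝ)
    have e1' : HasDerivAt (fun ρ : ℝ => 2 * ρ) 2 ρ := by
      simpa using (hasDerivAt_id ρ).const_mul (2:ℝ)
    have e2 := ((((hyd ρ hρ).const_mul ((m:ℝ) + 1)).fun_add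
      (e1.fun_mul (hs' ρ hρ).1)).const_mul ((m:ℝ) + 1 + 1))
    have e3 := ((hyd ρ hρ).const_mul 2).fun_mul
      (((hyd ρ hρ).const_mul ((m:ℝ) + 1 - 1)).fun_add e1')
    have e4 := e2.fun_div e3 (by positivity)
    rw [hlamdef, hlam'def]
    refine e4.congr_deriv ?_
    beta_reduce
    ring
  obtain ⟨W, hWdef⟩ : ∃ W : ℝ → ℝ, W = fun ρ => Ψ ρ ^ (-(((m:ℝ) + 2) / (m + 3))) := ⟨_, rfl⟩
  have hΨd : ∀ ρ > -ε, HasDerivAt Ψ (Ψ ρ * (((m:ℝ) + 3) / (m + 2) * lam ρ)) ρ := by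
    intro ρ hρ
    have hy0 := (hpos_y ρ hρ)
    have hH0 := (h ρ hρ).2.2.1
    have e1 := ((hfd ρ hρ).fun_div (hyd ρ hρ) hy0.ne').fun_pow (m + 1)
    have e2 : HasDerivAt (fun ρ => y ρ + ρ * (2 * s ρ - 1))
        ((1 - s ρ) + (1 * (2 * s ρ - 1) + ρ * (2 * deriv s ρ))) ρ :=
      (hyd ρ hρ).fun_add ((hasDerivAt_id' ρ).fun_mul
        (((hs' ρ hρ).1.const_mul 2).sub_const 1))
    have e3 := e1.fun_mul e2
    rw [hΨdef]
    refine e3.congr_deriv ?_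
    rw [hlamdef]
    beta_reduce
    have hp1 : (f ρ / y ρ) ^ (m + 1) = (f ρ / y ρ) ^ m * (f ρ / y ρ) := pow_succ _ _
    rw [Nat.add_sub_cancel]
    simp only [hp1]
    have hode := (hs' ρ hρ).2
    have hfp := (hfpos ρ).ne'
    have hm3 : (m:ℝ) + 2 ≠ 0 := by positivity
    push_cast
    have hy1 := hy0.ne'
    have hH1 := hH0.ne'
    set H := ((m:ℝ) + 1 - 1) * y ρ + 2 * ρ with hHdef
    generalize (f ρ / y ρ) ^ m = P
    clear_value H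
    have key : s ρ + 2 * ρ * deriv s ρ =
        (y ρ + ρ * (2 * s ρ - 1)) *
            (((m:ℝ) + 1) * (((m:ℝ) + 1 + 2) - 2 * ((m:ℝ) + 1 - 1) * s ρ) *
              y ρ + 8 * ρ * s ρ) / (2 * y ρ * H) := by
      rw [eq_div_iff (by positivity)]
      exact hode
    have key2 : (1 - s ρ + (1 * (2 * s ρ - 1) + ρ * (2 * deriv s ρ))) =
        s ρ + 2 * ρ * deriv s ρ := by ring
    rw [key2, key]
    field_simp
    rw [hHdef]
    ring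
  have hWd : ∀ ρ > -ε, HasDerivAt W (-(lam ρ) * W ρ) ρ := by
    intro ρ hρ
    have hp := hΨpos ρ hρ
    have e1 := (hΨd ρ hρ).rpow_const (p := -(((m:ℝ) + 2) / (m + 3))) (Or.inl hp.ne')
    rw [hWdef]
    refine e1.congr_deriv ?_
    beta_reduce
    have e2 : Ψ ρ ^ (-(((m:ℝ) + 2) / (m + 3)) - 1) * Ψ ρ = Ψ ρ ^ (-(((m:ℝ) + 2) / (m + 3))) := by
      rw [← Real.rpow_add_one hp.ne']; congr 1; ring
    rw [← e2]
    have hm2 : (m:ℝ) + 2 ≠ 0 := by positivity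
    have hm3 : (m:ℝ) + 3 ≠ 0 := by positivity
    field_simp
  have hWd₁ : ∀ ρ > -ε, HasDerivAt (fun ρ => -(lam ρ) * W ρ)
      ((lam ρ ^ 2 - lam' ρ) * W ρ) ρ := by
    intro ρ hρ
    refine ((hlamd ρ hρ).fun_neg.fun_mul (hWd ρ hρ)).congr_deriv ?_
    ring
  refine ⟨f, ?_, fun ρ _ => hfpos ρ, fun x => ⟨?_, ?_⟩⟩
  · rw [hfdef]
    exact Real.contDiff_exp.comp_contDiffOn hI
  · refine posDef_hess_uu hε (f₁ := f₁) (f₂ := f₂) ?_ hf₁d (fun ρ _ => hfpos ρ) hf₁pos ?_ x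
    · intro ρ hρ
      rw [hf₁def]
      exact hfd ρ hρ
    · intro ρ hρ
      rw [hD0 ρ hρ]
      have h1 := hfpos ρ
      have h2 := hpos_y ρ hρ
      have h3 := (h ρ hρ).2.1
      positivity
  · refine @am_uu m f f₁ f₂ W (fun ρ => -(lam ρ) * W ρ)
      (fun ρ => (lam ρ ^ 2 - lam' ρ) * W ρ) ε hε ?_ hf₁d hWd hWd₁ (fun ρ _ => hfpos ρ)
      hf₁pos ?_ hm ?_ ?_ x
    · intro ρ hρ
      rw [hf₁def]
      exact hfd ρ hρ
    · intro ρ hρ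
      rw [hD0 ρ hρ]
      have h1 := hfpos ρ
      have h2 := hpos_y ρ hρ
      have h3 := (h ρ hρ).2.1
      positivity
    · intro ρ hρ
      rw [hWdef, hD0 ρ hρ, hΨdef, hf₁def]
      beta_reduce
      congr 1
      obtain ⟨j, rfl⟩ : ∃ j, m = j + 1 := ⟨m - 1, by omega⟩
      simp only [Nat.add_sub_cancel]
      ring
    · intro ρ hρ
      have hy0 := (hpos_y ρ hρ)
      have hH0 := (h ρ hρ).2.2.1
      have key := ode_identity (n := (m:ℝ) + 1) (lam := lam ρ) (lam' := lam' ρ) hy0 hH0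
        (hs' ρ hρ).2 (by rw [hlamdef]) (by rw [hlam'def])
      rw [hf₁def, hf₂def]
      beta_reduce
      have hy1 := hy0.ne'
      generalize lam ρ = L at key ⊢
      generalize lam' ρ = L' at key ⊢
      generalize W ρ = w at key ⊢
      generalize f ρ = F at key ⊢
      generalize y ρ = Y at *
      generalize s ρ = S at *
      have key2 := congrArg (fun z => F ^ 2 * w / Y * z) key
      beta_reduce at key2
      rw [mul_zero] at key2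
      rw [← key2]
      field_simp
      ring

end Vale.Agent.P252
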