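import Mathlib

namespace Vale.Agent.P252

open MeasureTheory Set Filter Topology
open scoped ContDiff BoundedContinuousFunction

theorem vt_cont {a : ℝ} (ha : 0 ≤ a) {g : ℝ → ℝ} (hg : Continuous g) :
    Continuous fun ρ : ℝ => ∫ τ in (0:ℝ)..1, τ ^ a * g (τ * ρ) := by
  have h1 : Continuous fun p : ℝ × ℝ => p.2 ^ a := (Real.continuous_rpow_const ha).comp continuous_snd
  have h2 : Continuous (Function.uncurry fun ρ τ : ℝ => τ ^ a * g (τ * ρ)) :=
    h1.mul (hg.comp (continuous_snd.mul continuous_fst))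
  exact intervalIntegral.continuous_parametric_intervalIntegral_of_continuous' h2 0 1

theorem vt_int {a : ℝ} (ha : 0 ≤ a) {g : ℝ → ℝ} (hg : Continuous g) (ρ : ℝ) :
    IntervalIntegrable (fun τ : ℝ => τ ^ a * g (τ * ρ)) volume 0 1 := by
  apply Continuous.intervalIntegrable
  exact ((Real.continuous_rpow_const ha)).mul (hg.comp (continuous_id.mul continuous_const))

/-- An upper bound for the weighted average by any continuous majorant. -/
theorem vt_le {a : ℝ} (ha : 0 ≤ a) {g : ℝ → ℝ} (hg : Continuous g) {ρ : ℝ} {b : ℝ → ℝ}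
    (hb : Continuous b) (h : ∀ τ ∈ Icc (0:ℝ) 1, |g (τ * ρ)| ≤ b τ) :
    |∫ τ in (0:ℝ)..1, τ ^ a * g (τ * ρ)| ≤ ∫ τ in (0:ℝ)..1, b τ := by
  refine (intervalIntegral.abs_integral_le_integral_abs zero_le_one).trans ?_
  refine intervalIntegral.integral_mono_on zero_le_one (vt_int ha hg ρ).abs
    (hb.intervalIntegrable _ _) ?_
  intro τ hτ
  rw [abs_mul, abs_of_nonneg (Real.rpow_nonneg hτ.1 a)]
  calc τ ^ a * |g (τ * ρ)| ≤ 1 * |g (τ * ρ)| :=
        mul_le_mul_of_nonneg_right (Real.rpow_le_one hτ.1 hτ.2 ha) (abs_nonneg _)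
    _ ≤ b τ := by rw [one_mul]; exact h τ hτ

theorem vt_exp (c C : ℝ) (lam : ℝ) (hlam : 0 < lam) :
    c * ∫ τ in (0:ℝ)..1, C * Real.exp (lam * (τ * c)) = C * ((Real.exp (lam * c) - 1) / lam) := by
  have h : ∫ τ in (0:ℝ)..1, c * (C * Real.exp (lam * (τ * c))) =
      C * (Real.exp (lam * (1 * c)) / lam) - C * (Real.exp (lam * (0 * c)) / lam) := by
    apply intervalIntegral.integral_eq_sub_of_hasDerivAt
      (f := fun τ => C * (Real.exp (lam * (τ * c)) / lam))
    · intro τ _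
      have h1 : HasDerivAt (fun τ : ℝ => lam * (τ * c)) (lam * (1 * c)) τ :=
        ((hasDerivAt_id τ).mul_const c).const_mul lam
      have h2 := ((h1.exp).div_const lam).const_mul C
      have h3 : c * (C * Real.exp (lam * (τ * c))) =
          C * (Real.exp (lam * (τ * c)) * (lam * (1 * c)) / lam) := by
        have : lam ≠ 0 := hlam.ne'
        field_simp
      rw [h3]
      exact h2
    · apply Continuous.intervalIntegrable
      fun_prop
  rw [← intervalIntegral.integral_const_mul, h]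
  simp only [one_mul, zero_mul, mul_zero, Real.exp_zero]
  ring

theorem vt_weight {lam : ℝ} (hlam : 1 ≤ lam) (r : ℝ) (hr : 0 ≤ r) :
    Real.exp (-(lam * r)) * r ≤ 1 := by
  have h1 : r ≤ Real.exp (lam * r) := by
    have := Real.add_one_le_exp (lam * r)
    nlinarith
  calc Real.exp (-(lam * r)) * r ≤ Real.exp (-(lam * r)) * Real.exp (lam * r) :=
        mul_le_mul_of_nonneg_left h1 (Real.exp_pos _).le
    _ = 1 := by rw [← Real.exp_add]; simp

/-- (V) Abstract Volterra fixed point on the whole line. -/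
theorem volterra (a : ℝ) (ha : 0 ≤ a) (s0 : ℝ) (G : (ℝ → ℝ) → ℝ → ℝ) (B L : ℝ)
    (hcont : ∀ s, Continuous s → Continuous (G s))
    (hB : ∀ s, Continuous s → ∀ η, |G s η| ≤ B)
    (hL : ∀ lam : ℝ, 1 ≤ lam → ∀ C : ℝ, 0 ≤ C → ∀ s₁ s₂ : ℝ → ℝ, Continuous s₁ → Continuous s₂ →
      (∀ ξ, |s₁ ξ - s₂ ξ| ≤ C * Real.exp (lam * |ξ|)) →
      ∀ η, |G s₁ η - G s₂ η| ≤ L * C * Real.exp (lam * |η|)) :
    ∃ s : ℝ → ℝ, Continuous s ∧
      ∀ ρ, s ρ = s0 + ρ * ∫ τ in (0:ℝ)..1, τ ^ a * G s (τ * ρ) := by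
  classical
  set lam : ℝ := |L| + 1 with hlam
  have hlam1 : 1 ≤ lam := by rw [hlam]; linarith [abs_nonneg L]
  have hlam0 : 0 < lam := by linarith
  have hB0 : 0 ≤ B := (abs_nonneg _).trans (hB (fun _ => 0) continuous_const 0)
  -- unweighting
  let S : (ℝ →ᵇ ℝ) → ℝ → ℝ := fun z ρ => Real.exp (lam * |ρ|) * z ρ
  have hS : ∀ z, Continuous (S z) := fun z =>
    (Real.continuous_exp.comp (continuous_const.mul continuous_abs)).mul z.continuous
  have hG : ∀ z, Continuous (G (S z)) := fun z => hcont _ (hS z)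
  have hbd : ∀ z ρ, |∫ τ in (0:ℝ)..1, τ ^ a * G (S z) (τ * ρ)| ≤ B := by
    intro z ρ
    refine (vt_le ha (hG z) (b := fun _ => B) continuous_const (fun τ _ => hB _ (hS z) _)).trans ?_
    simp
  let T : (ℝ →ᵇ ℝ) → (ℝ →ᵇ ℝ) := fun z =>
    BoundedContinuousFunction.ofNormedAddCommGroup
      (fun ρ => Real.exp (-(lam * |ρ|)) * (s0 + ρ * ∫ τ in (0:ℝ)..1, τ ^ a * G (S z) (τ * ρ)))
      ((Real.continuous_exp.comp (continuous_const.mul continuous_abs).neg).mul
        (continuous_const.add (continuous_id.mul (vt_cont ha (hG z)))))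
      (|s0| + B) (by
        intro ρ
        rw [Real.norm_eq_abs, abs_mul, abs_of_pos (Real.exp_pos _)]
        have h1 : |s0 + ρ * ∫ τ in (0:ℝ)..1, τ ^ a * G (S z) (τ * ρ)| ≤ |s0| + |ρ| * B := by
          refine (abs_add_le _ _).trans ?_
          rw [abs_mul]
          gcongr
          exact hbd z ρ
        have h2 : Real.exp (-(lam * |ρ|)) ≤ 1 := by
          rw [Real.exp_le_one_iff]
          have := mul_nonneg hlam0.le (abs_nonneg ρ)
          linarith
        have h3 := vt_weight hlam1 |ρ| (abs_nonneg ρ)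
        calc Real.exp (-(lam * |ρ|)) * |s0 + ρ * ∫ τ in (0:ℝ)..1, τ ^ a * G (S z) (τ * ρ)|
            ≤ Real.exp (-(lam * |ρ|)) * (|s0| + |ρ| * B) :=
              mul_le_mul_of_nonneg_left h1 (Real.exp_pos _).le
          _ = Real.exp (-(lam * |ρ|)) * |s0| + (Real.exp (-(lam * |ρ|)) * |ρ|) * B := by ring
          _ ≤ 1 * |s0| + 1 * B :=
              add_le_add (mul_le_mul_of_nonneg_right h2 (abs_nonneg _))
                (mul_le_mul_of_nonneg_right h3 hB0)
          _ = |s0| + B := by ring)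
  have hTval : ∀ z ρ, T z ρ =
      Real.exp (-(lam * |ρ|)) * (s0 + ρ * ∫ τ in (0:ℝ)..1, τ ^ a * G (S z) (τ * ρ)) :=
    fun z ρ => rfl
  set q : ℝ := |L| / lam with hq
  have hq0 : 0 ≤ q := div_nonneg (abs_nonneg _) hlam0.le
  have hq1 : q < 1 := by
    rw [hq, div_lt_one hlam0, hlam]
    linarith
  have hT : ∀ z z' : ℝ →ᵇ ℝ, dist (T z) (T z') ≤ q * dist z z' := by
    intro z z'
    set C := dist z z' with hC
    have hC0 : 0 ≤ C := dist_nonneg
    rw [BoundedContinuousFunction.dist_le (by positivity)]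
    intro ρ
    rw [Real.dist_eq, hTval, hTval]
    have hdiff : ∀ ξ, |S z ξ - S z' ξ| ≤ C * Real.exp (lam * |ξ|) := by
      intro ξ
      show |Real.exp (lam * |ξ|) * z ξ - Real.exp (lam * |ξ|) * z' ξ| ≤ _
      rw [← mul_sub, abs_mul, abs_of_pos (Real.exp_pos _), mul_comm]
      refine mul_le_mul_of_nonneg_right ?_ (Real.exp_pos _).le
      have := BoundedContinuousFunction.dist_coe_le_dist (f := z) (g := z') ξ
      rwa [Real.dist_eq] at this
    have hGd : ∀ η, |G (S z) η - G (S z') η| ≤ |L| * C * Real.exp (lam * |η|) := by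
      intro η
      refine (hL lam hlam1 C hC0 _ _ (hS z) (hS z') hdiff η).trans ?_
      have := le_abs_self L
      gcongr
    have hint : (∫ τ in (0:ℝ)..1, τ ^ a * G (S z) (τ * ρ)) -
        (∫ τ in (0:ℝ)..1, τ ^ a * G (S z') (τ * ρ)) =
        ∫ τ in (0:ℝ)..1, τ ^ a * (fun η => G (S z) η - G (S z') η) (τ * ρ) := by
      rw [← intervalIntegral.integral_sub (vt_int ha (hG z) ρ) (vt_int ha (hG z') ρ)]
      congr 1
      funext τ
      ring
    have e : Real.exp (-(lam * |ρ|)) * (s0 + ρ * ∫ τ in (0:ℝ)..1, τ ^ a * G (S z) (τ * ρ)) -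
        Real.exp (-(lam * |ρ|)) * (s0 + ρ * ∫ τ in (0:ℝ)..1, τ ^ a * G (S z') (τ * ρ)) =
        Real.exp (-(lam * |ρ|)) * (ρ * ∫ τ in (0:ℝ)..1, τ ^ a *
          (fun η => G (S z) η - G (S z') η) (τ * ρ)) := by
      rw [← hint]; ring
    rw [e, abs_mul, abs_of_pos (Real.exp_pos _), abs_mul]
    have h1 : |∫ τ in (0:ℝ)..1, τ ^ a * (fun η => G (S z) η - G (S z') η) (τ * ρ)| ≤
        ∫ τ in (0:ℝ)..1, (|L| * C) * Real.exp (lam * (τ * |ρ|)) := by
      refine vt_le ha ((hG z).sub (hG z')) (b := fun τ => (|L| * C) * Real.exp (lam * (τ * |ρ|)))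
        (by fun_prop) ?_
      intro τ hτ
      have := hGd (τ * ρ)
      rw [abs_mul τ ρ, abs_of_nonneg hτ.1] at this
      exact this
    have h2 : |ρ| * |∫ τ in (0:ℝ)..1, τ ^ a * (fun η => G (S z) η - G (S z') η) (τ * ρ)| ≤
        (|L| * C) * ((Real.exp (lam * |ρ|) - 1) / lam) := by
      rw [← vt_exp |ρ| (|L| * C) lam hlam0]
      exact mul_le_mul_of_nonneg_left h1 (abs_nonneg _)
    have h3 : (|L| * C) * ((Real.exp (lam * |ρ|) - 1) / lam) ≤
        (|L| * C) * (Real.exp (lam * |ρ|) / lam) := by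
      have : 0 ≤ |L| * C := mul_nonneg (abs_nonneg _) hC0
      gcongr
      linarith
    calc Real.exp (-(lam * |ρ|)) * (|ρ| * |∫ τ in (0:ℝ)..1, τ ^ a *
          (fun η => G (S z) η - G (S z') η) (τ * ρ)|)
        ≤ Real.exp (-(lam * |ρ|)) * ((|L| * C) * (Real.exp (lam * |ρ|) / lam)) :=
          mul_le_mul_of_nonneg_left (h2.trans h3) (Real.exp_pos _).le
      _ = (Real.exp (-(lam * |ρ|)) * Real.exp (lam * |ρ|)) * (|L| / lam * C) := by ring
      _ = q * C := by rw [← Real.exp_add]; simp [hq]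
  have hcw : ContractingWith ⟨q, hq0⟩ T :=
    ⟨by exact_mod_cast hq1, LipschitzWith.of_dist_le_mul hT⟩
  have hfix : T (hcw.fixedPoint T) = hcw.fixedPoint T := hcw.fixedPoint_isFixedPt
  set z := hcw.fixedPoint T with hz
  refine ⟨S z, hS z, ?_⟩
  intro ρ
  have h1 : z ρ = Real.exp (-(lam * |ρ|)) *
      (s0 + ρ * ∫ τ in (0:ℝ)..1, τ ^ a * G (S z) (τ * ρ)) := by
    conv_lhs => rw [← hfix]
    exact hTval z ρ
  show Real.exp (lam * |ρ|) * z ρ = _
  rw [h1, ← mul_assoc, ← Real.exp_add]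
  simp

end Vale.Agent.P252
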