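import Mathlib
import Vale.Agent.P252.Volterra
import Vale.Agent.P252.Avg

namespace Vale.Agent.P252

open MeasureTheory Set Filter Topology
open scoped ContDiff

/-! ### The clamp -/

noncomputable def cl (x : ℝ) : ℝ := max (1/2) (min x (7/9))

theorem cl_lo (x : ℝ) : 1/2 ≤ cl x := le_max_left _ _

theorem cl_hi (x : ℝ) : cl x ≤ 7/9 := max_le (by norm_num) (min_le_right _ _)

theorem cl_eq {x : ℝ} (h1 : 1/2 ≤ x) (h2 : x ≤ 7/9) : cl x = x := by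
  unfold cl; rw [min_eq_left h2, max_eq_right h1]

theorem cl_of_ge {x : ℝ} (h : 7/9 ≤ x) : cl x = 7/9 := by
  unfold cl; rw [min_eq_right h]; norm_num

theorem cl_of_le {x : ℝ} (h : x ≤ 1/2) : cl x = 1/2 := by
  unfold cl; rw [min_eq_left (by linarith), max_eq_left h]

theorem cl_cont : Continuous cl := continuous_const.max (continuous_id.min continuous_const)

theorem cl_lip (x y : ℝ) : |cl x - cl y| ≤ |x - y| := by
  unfold cl
  refine (abs_max_sub_max_le_max _ _ _ _).trans (max_le (by simp) ?_)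
  exact (abs_min_sub_min_le_max _ _ _ _).trans (max_le le_rfl (by simp))

/-! ### The function `y` -/

noncomputable def yy (s : ℝ → ℝ) (ρ : ℝ) : ℝ := 1 + ∫ ξ in (0:ℝ)..ρ, (1 - cl (s ξ))

theorem yy_cont_aux {s : ℝ → ℝ} (hs : Continuous s) : Continuous fun ξ => 1 - cl (s ξ) :=
  continuous_const.sub (cl_cont.comp hs)

theorem yy_deriv {s : ℝ → ℝ} (hs : Continuous s) (ρ : ℝ) :
    HasDerivAt (yy s) (1 - cl (s ρ)) ρ := by
  have h := intervalIntegral.integral_hasDerivAt_right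
    ((yy_cont_aux hs).intervalIntegrable 0 ρ)
    ((yy_cont_aux hs).stronglyMeasurableAtFilter _ _) (yy_cont_aux hs).continuousAt
  exact h.const_add 1

theorem yy_cont {s : ℝ → ℝ} (hs : Continuous s) : Continuous (yy s) :=
  continuous_iff_continuousAt.2 fun ρ => (yy_deriv hs ρ).continuousAt

theorem yy_ge_pos {s : ℝ → ℝ} (hs : Continuous s) {ρ : ℝ} (hρ : 0 ≤ ρ) :
    1 + 2/9 * ρ ≤ yy s ρ := by
  unfold yy
  have h : ∫ ξ in (0:ℝ)..ρ, (2/9:ℝ) ≤ ∫ ξ in (0:ℝ)..ρ, (1 - cl (s ξ)) := by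
    refine intervalIntegral.integral_mono_on hρ (by simp)
      ((yy_cont_aux hs).intervalIntegrable _ _) ?_
    intro ξ _
    have := cl_hi (s ξ)
    linarith
  rw [intervalIntegral.integral_const, sub_zero, smul_eq_mul] at h
  linarith

theorem yy_ge_neg {s : ℝ → ℝ} (hs : Continuous s) {ρ : ℝ} (hρ : ρ ≤ 0) :
    1 + 1/2 * ρ ≤ yy s ρ := by
  unfold yy
  have h : ∫ ξ in ρ..(0:ℝ), (1 - cl (s ξ)) ≤ ∫ ξ in ρ..(0:ℝ), (1/2:ℝ) := by
    refine intervalIntegral.integral_mono_on hρ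
      ((yy_cont_aux hs).intervalIntegrable _ _) (by simp) ?_
    intro ξ _
    have := cl_lo (s ξ)
    linarith
  rw [intervalIntegral.integral_const, smul_eq_mul] at h
  rw [intervalIntegral.integral_symm]
  linarith

theorem yy_diff {s₁ s₂ : ℝ → ℝ} (h₁ : Continuous s₁) (h₂ : Continuous s₂) {lam C : ℝ}
    (hlam : 1 ≤ lam) (hC : 0 ≤ C)
    (h : ∀ ξ, |s₁ ξ - s₂ ξ| ≤ C * Real.exp (lam * |ξ|)) (ρ : ℝ) :
    |yy s₁ ρ - yy s₂ ρ| ≤ C * Real.exp (lam * |ρ|) := by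
  have hlam0 : 0 < lam := by linarith
  have hc : Continuous fun ξ => (1 - cl (s₁ ξ)) - (1 - cl (s₂ ξ)) :=
    (yy_cont_aux h₁).sub (yy_cont_aux h₂)
  have e : yy s₁ ρ - yy s₂ ρ =
      ρ * ∫ τ in (0:ℝ)..1, τ ^ (0:ℝ) * (fun ξ => (1 - cl (s₁ ξ)) - (1 - cl (s₂ ξ))) (τ * ρ) := by
    have e1 := intervalIntegral.mul_integral_comp_mul_right (a := 0) (b := 1) (c := ρ)
      (f := fun ξ => (1 - cl (s₁ ξ)) - (1 - cl (s₂ ξ)))
    rw [zero_mul, one_mul] at e1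
    simp only [Real.rpow_zero, one_mul]
    rw [e1, intervalIntegral.integral_sub ((yy_cont_aux h₁).intervalIntegrable _ _)
      ((yy_cont_aux h₂).intervalIntegrable _ _)]
    unfold yy
    ring
  rw [e, abs_mul]
  have h1 : |∫ τ in (0:ℝ)..1, τ ^ (0:ℝ) *
      (fun ξ => (1 - cl (s₁ ξ)) - (1 - cl (s₂ ξ))) (τ * ρ)| ≤
      ∫ τ in (0:ℝ)..1, C * Real.exp (lam * (τ * |ρ|)) := by
    refine vt_le le_rfl hc (by fun_prop) ?_
    intro τ hτ
    have e2 : (fun ξ => (1 - cl (s₁ ξ)) - (1 - cl (s₂ ξ))) (τ * ρ) =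
      cl (s₂ (τ * ρ)) - cl (s₁ (τ * ρ)) := by ring
    show |(fun ξ => (1 - cl (s₁ ξ)) - (1 - cl (s₂ ξ))) (τ * ρ)| ≤ C * Real.exp (lam * (τ * |ρ|))
    rw [e2, abs_sub_comm]
    have := (cl_lip (s₁ (τ * ρ)) (s₂ (τ * ρ))).trans (h (τ * ρ))
    rwa [abs_mul τ ρ, abs_of_nonneg hτ.1] at this
  calc |ρ| * |∫ τ in (0:ℝ)..1, τ ^ (0:ℝ) *
        (fun ξ => (1 - cl (s₁ ξ)) - (1 - cl (s₂ ξ))) (τ * ρ)|
      ≤ |ρ| * ∫ τ in (0:ℝ)..1, C * Real.exp (lam * (τ * |ρ|)) :=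
        mul_le_mul_of_nonneg_left h1 (abs_nonneg _)
    _ = C * ((Real.exp (lam * |ρ|) - 1) / lam) := vt_exp _ _ _ hlam0
    _ ≤ C * Real.exp (lam * |ρ|) := by
        refine mul_le_mul_of_nonneg_left ?_ hC
        rw [div_le_iff₀ hlam0]
        have := Real.exp_pos (lam * |ρ|)
        nlinarith

/-! ### Bounded Lipschitz calculus -/

structure LB (M K d u v : ℝ) : Prop where
  b1 : |u| ≤ M
  b2 : |v| ≤ M
  b3 : |u - v| ≤ K * d

theorem LB.const (c d : ℝ) : LB |c| 0 d c c := ⟨le_rfl, le_rfl, by simp⟩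

theorem LB.add {M K M' K' d u v u' v' : ℝ} (h : LB M K d u v) (h' : LB M' K' d u' v') :
    LB (M + M') (K + K') d (u + u') (v + v') := by
  refine ⟨(abs_add_le _ _).trans (add_le_add h.b1 h'.b1),
    (abs_add_le _ _).trans (add_le_add h.b2 h'.b2), ?_⟩
  have e : u + u' - (v + v') = (u - v) + (u' - v') := by ring
  rw [e, add_mul]
  exact (abs_add_le _ _).trans (add_le_add h.b3 h'.b3)

theorem LB.mul {M K M' K' d u v u' v' : ℝ} (h : LB M K d u v) (h' : LB M' K' d u' v') :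
    LB (M * M') (M * K' + M' * K) d (u * u') (v * v') := by
  have hM : 0 ≤ M := (abs_nonneg _).trans h.b1
  have hM' : 0 ≤ M' := (abs_nonneg _).trans h'.b1
  refine ⟨?_, ?_, ?_⟩
  · rw [abs_mul]; exact mul_le_mul h.b1 h'.b1 (abs_nonneg _) hM
  · rw [abs_mul]; exact mul_le_mul h.b2 h'.b2 (abs_nonneg _) hM
  · have e : u * u' - v * v' = u * (u' - v') + v' * (u - v) := by ring
    rw [e]
    refine (abs_add_le _ _).trans ?_
    rw [abs_mul, abs_mul]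
    calc |u| * |u' - v'| + |v'| * |u - v| ≤ M * (K' * d) + M' * (K * d) :=
          add_le_add (mul_le_mul h.b1 h'.b3 (abs_nonneg _) hM)
            (mul_le_mul h'.b2 h.b3 (abs_nonneg _) hM')
      _ = _ := by ring

/-! ### The right-hand side -/

noncomputable def S0 (n : ℝ) : ℝ := n * (n + 2) / (2 * (n ^ 2 - 1))

noncomputable def c1 (n σ : ℝ) : ℝ :=
  2 * (n + 1) * (σ + -S0 n) + 2 * σ + n * (σ + -(1/2)) * ((n + 2) + (-(2 * (n - 1))) * σ)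

noncomputable def Phi (n ρ y σ : ℝ) : ℝ :=
  (1/2) * (c1 n σ + 8 * (ρ / y) * (σ * (σ + -(1/2)))) * ((n - 1) * y + 2 * ρ)⁻¹

theorem Phi_LB (n : ℝ) (hn : 10 ≤ n) : ∃ M K : ℝ, ∀ ρ y₁ y₂ σ₁ σ₂ d : ℝ, -(1/2) ≤ ρ →
    ρ ≤ 9/2 * y₁ → ρ ≤ 9/2 * y₂ → 3/4 ≤ y₁ → 3/4 ≤ y₂ → 1/2 ≤ σ₁ → σ₁ ≤ 7/9 →
    1/2 ≤ σ₂ → σ₂ ≤ 7/9 → |y₁ - y₂| ≤ d → |σ₁ - σ₂| ≤ d →
    LB M K d (Phi n ρ y₁ σ₁) (Phi n ρ y₂ σ₂) := by
  apply Exists.intro
  apply Exists.intro
  intro ρ y₁ y₂ σ₁ σ₂ d hρ hr₁ hr₂ hy₁ hy₂ h1 h2 h3 h4 hy hσ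
  have hs : LB 1 1 d σ₁ σ₂ := by
    refine ⟨?_, ?_, by linarith⟩ <;> rw [abs_le] <;> constructor <;> linarith
  have hw : LB 1 (n - 1) d ((n - 1) * y₁ + 2 * ρ)⁻¹ ((n - 1) * y₂ + 2 * ρ)⁻¹ := by
    have hP₁ : 1 ≤ (n - 1) * y₁ + 2 * ρ := by nlinarith
    have hP₂ : 1 ≤ (n - 1) * y₂ + 2 * ρ := by nlinarith
    have hP₁' : 0 < (n - 1) * y₁ + 2 * ρ := by linarith
    have hP₂' : 0 < (n - 1) * y₂ + 2 * ρ := by linarith
    refine ⟨?_, ?_, ?_⟩
    · rw [abs_of_pos (inv_pos.2 hP₁')]; exact inv_le_one_of_one_le₀ hP₁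
    · rw [abs_of_pos (inv_pos.2 hP₂')]; exact inv_le_one_of_one_le₀ hP₂
    · have e : ((n - 1) * y₁ + 2 * ρ)⁻¹ - ((n - 1) * y₂ + 2 * ρ)⁻¹ =
        ((n - 1) * y₁ + 2 * ρ)⁻¹ * ((n - 1) * y₂ + 2 * ρ)⁻¹ * ((n - 1) * (y₂ - y₁)) := by
        field_simp
        ring
      rw [e, abs_mul, abs_mul, abs_of_pos (inv_pos.2 hP₁'), abs_of_pos (inv_pos.2 hP₂'),
        abs_mul, abs_of_pos (by linarith : (0:ℝ) < n - 1), abs_sub_comm]
      have i1 : ((n - 1) * y₁ + 2 * ρ)⁻¹ ≤ 1 := inv_le_one_of_one_le₀ hP₁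
      have i2 : ((n - 1) * y₂ + 2 * ρ)⁻¹ ≤ 1 := inv_le_one_of_one_le₀ hP₂
      have i3 : ((n - 1) * y₁ + 2 * ρ)⁻¹ * ((n - 1) * y₂ + 2 * ρ)⁻¹ ≤ 1 :=
        mul_le_one₀ i1 (inv_pos.2 hP₂').le i2
      calc ((n - 1) * y₁ + 2 * ρ)⁻¹ * ((n - 1) * y₂ + 2 * ρ)⁻¹ * ((n - 1) * |y₁ - y₂|)
          ≤ 1 * ((n - 1) * d) := by
            refine mul_le_mul i3 (mul_le_mul_of_nonneg_left hy (by linarith))
              (mul_nonneg (by linarith) (abs_nonneg _)) zero_le_one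
        _ = _ := by ring
  have hrr : LB (9/2) 6 d (ρ / y₁) (ρ / y₂) := by
    have p1 : 0 < y₁ := by linarith
    have p2 : 0 < y₂ := by linarith
    refine ⟨?_, ?_, ?_⟩
    · rw [abs_le]
      constructor
      · rw [le_div_iff₀ p1]; nlinarith
      · rw [div_le_iff₀ p1]; linarith
    · rw [abs_le]
      constructor
      · rw [le_div_iff₀ p2]; nlinarith
      · rw [div_le_iff₀ p2]; linarith
    · have e : ρ / y₁ - ρ / y₂ = (ρ / y₁) * ((y₂ - y₁) / y₂) := by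
        field_simp
      rw [e, abs_mul, abs_div (y₂ - y₁) y₂, abs_of_pos p2, abs_sub_comm]
      have i1 : |ρ / y₁| ≤ 9/2 := by
        rw [abs_le]
        constructor
        · rw [le_div_iff₀ p1]; nlinarith
        · rw [div_le_iff₀ p1]; linarith
      have i2 : |y₁ - y₂| / y₂ ≤ 4/3 * d := by
        rw [div_le_iff₀ p2]
        have hd : 0 ≤ d := (abs_nonneg _).trans hy
        nlinarith
      calc |ρ / y₁| * (|y₁ - y₂| / y₂) ≤ 9/2 * (4/3 * d) :=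
            mul_le_mul i1 i2 (div_nonneg (abs_nonneg _) p2.le) (by norm_num)
        _ = 6 * d := by ring
  have hc : LB _ _ d (c1 n σ₁) (c1 n σ₂) :=
    (((LB.const (2 * (n + 1)) d).mul (hs.add (LB.const (-S0 n) d))).add
      ((LB.const 2 d).mul hs)).add
      (((LB.const n d).mul (hs.add (LB.const (-(1/2)) d))).mul
        ((LB.const (n + 2) d).add ((LB.const (-(2 * (n - 1))) d).mul hs)))
  exact ((LB.const (1/2) d).mul (hc.add (((LB.const 8 d).mul hrr).mul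
    (hs.mul (hs.add (LB.const (-(1/2)) d)))))).mul hw

/-! ### Application of the fixed point theorem -/

noncomputable def mx (η : ℝ) : ℝ := max η (-(1/2))

theorem mx_cont : Continuous mx := continuous_id.max continuous_const

theorem mx_ge (η : ℝ) : -(1/2) ≤ mx η := le_max_right _ _

theorem mx_eq {η : ℝ} (h : -(1/2) ≤ η) : mx η = η := max_eq_left h

theorem abs_mx_le (η : ℝ) : |mx η| ≤ |η| := by
  unfold mx
  rcases le_total η (-(1/2)) with h | h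
  · rw [max_eq_right h, abs_of_nonpos (by norm_num), abs_of_nonpos (by linarith)]
    linarith
  · rw [max_eq_left h]

noncomputable def GG (n : ℝ) (s : ℝ → ℝ) (η : ℝ) : ℝ := Phi n (mx η) (yy s (mx η)) (cl (s (mx η)))

theorem yy_low {s : ℝ → ℝ} (hs : Continuous s) {ρ : ℝ} (hρ : -(1/2) ≤ ρ) :
    3/4 ≤ yy s ρ ∧ ρ ≤ 9/2 * yy s ρ := by
  rcases le_total 0 ρ with h | h
  · have := yy_ge_pos hs h
    constructor <;> linarith
  · have := yy_ge_neg hs h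
    constructor <;> linarith

theorem GG_cont (n : ℝ) (hn : 10 ≤ n) {s : ℝ → ℝ} (hs : Continuous s) : Continuous (GG n s) := by
  unfold GG Phi c1
  have h1 : Continuous fun η => yy s (mx η) := (yy_cont hs).comp mx_cont
  have h2 : Continuous fun η => cl (s (mx η)) := cl_cont.comp (hs.comp mx_cont)
  have h3 : ∀ η, yy s (mx η) ≠ 0 := fun η => by
    have := (yy_low hs (mx_ge η)).1
    linarith
  have h4 : ∀ η, (n - 1) * yy s (mx η) + 2 * mx η ≠ 0 := fun η => by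
    have h5 := (yy_low hs (mx_ge η)).1
    have h6 := mx_ge η
    nlinarith
  have h5 : Continuous fun η => mx η / yy s (mx η) := mx_cont.div h1 h3
  have h6 : Continuous fun η => ((n - 1) * yy s (mx η) + 2 * mx η)⁻¹ :=
    ((continuous_const.mul h1).add (continuous_const.mul mx_cont)).inv₀ h4
  fun_prop

theorem GG_LB (n : ℝ) (hn : 10 ≤ n) : ∃ M K : ℝ, 
    (∀ s, Continuous s → ∀ η, |GG n s η| ≤ M) ∧
    (∀ lam : ℝ, 1 ≤ lam → ∀ C : ℝ, 0 ≤ C → ∀ s₁ s₂ : ℝ → ℝ, Continuous s₁ → Continuous s₂ →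
      (∀ ξ, |s₁ ξ - s₂ ξ| ≤ C * Real.exp (lam * |ξ|)) →
      ∀ η, |GG n s₁ η - GG n s₂ η| ≤ K * C * Real.exp (lam * |η|)) := by
  obtain ⟨M, K, h⟩ := Phi_LB n hn
  have main : ∀ lam : ℝ, 1 ≤ lam → ∀ C : ℝ, 0 ≤ C → ∀ s₁ s₂ : ℝ → ℝ, Continuous s₁ →
      Continuous s₂ → (∀ ξ, |s₁ ξ - s₂ ξ| ≤ C * Real.exp (lam * |ξ|)) →
      ∀ η, LB M K (C * Real.exp (lam * |mx η|)) (GG n s₁ η) (GG n s₂ η) := by
    intro lam hlam C hC s₁ s₂ h₁ h₂ hd η
    have q1 := yy_low h₁ (mx_ge η)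
    have q2 := yy_low h₂ (mx_ge η)
    exact h _ _ _ _ _ _ (mx_ge η) q1.2 q2.2 q1.1 q2.1 (cl_lo _) (cl_hi _) (cl_lo _) (cl_hi _)
      (yy_diff h₁ h₂ hlam hC hd _) ((cl_lip _ _).trans (hd _))
  refine ⟨M, |K|, ?_, ?_⟩
  · intro s hs η
    exact (main 1 le_rfl 0 le_rfl s s hs hs (by simp) η).b1
  · intro lam hlam C hC s₁ s₂ h₁ h₂ hd η
    refine (main lam hlam C hC s₁ s₂ h₁ h₂ hd η).b3.trans ?_
    rw [mul_assoc]
    have e1 : Real.exp (lam * |mx η|) ≤ Real.exp (lam * |η|) := by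
      apply Real.exp_le_exp.2
      exact mul_le_mul_of_nonneg_left (abs_mx_le η) (by linarith)
    have e2 : 0 ≤ C * Real.exp (lam * |mx η|) := mul_nonneg hC (Real.exp_pos _).le
    calc K * (C * Real.exp (lam * |mx η|)) ≤ |K| * (C * Real.exp (lam * |mx η|)) :=
          mul_le_mul_of_nonneg_right (le_abs_self K) e2
      _ ≤ |K| * (C * Real.exp (lam * |η|)) :=
          mul_le_mul_of_nonneg_left (mul_le_mul_of_nonneg_left e1 hC) (abs_nonneg K)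

/-- The clamped solution. -/
theorem exists_clamped (n : ℝ) (hn : 10 ≤ n) : ∃ s : ℝ → ℝ, Continuous s ∧
    ∀ ρ, s ρ = S0 n + ρ * ∫ τ in (0:ℝ)..1, τ ^ ((n + 1) / 2) * GG n s (τ * ρ) := by
  obtain ⟨M, K, h1, h2⟩ := GG_LB n hn
  exact volterra ((n + 1) / 2) (by linarith) (S0 n) (GG n) M K (fun s hs => GG_cont n hn hs) h1 h2

theorem clamped_deriv {n : ℝ} (hn : 10 ≤ n) {s : ℝ → ℝ} (hs : Continuous s)
    (h : ∀ ρ, s ρ = S0 n + ρ * ∫ τ in (0:ℝ)..1, τ ^ ((n + 1) / 2) * GG n s (τ * ρ)) (ρ : ℝ) :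
    ∃ s', HasDerivAt s s' ρ ∧ ρ * s' = ρ * GG n s ρ - (n + 1) / 2 * (s ρ - S0 n) := by
  have h1 := hasDerivAt_avg ((n + 1) / 2) (by linarith) isOpen_univ ordConnected_univ (mem_univ 0)
    (GG_cont n hn hs).continuousOn (mem_univ ρ)
  refine ⟨GG n s ρ - (n + 1) / 2 * ∫ τ in (0:ℝ)..1, τ ^ ((n + 1) / 2) * GG n s (τ * ρ), ?_, ?_⟩
  · have h2 := h1.const_add (S0 n)
    exact h2.congr_of_eventuallyEq (Eventually.of_forall h)
  · have h3 := h ρ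
    have h4 : s ρ - S0 n = ρ * ∫ τ in (0:ℝ)..1, τ ^ ((n + 1) / 2) * GG n s (τ * ρ) := by
      rw [h3]; ring
    rw [h4]; ring

/-! ### Trapping -/

theorem S0_eq {n : ℝ} (hn : 10 ≤ n) : S0 n * (n ^ 2 - 1) = n * (n + 2) / 2 := by
  unfold S0
  have : n ^ 2 - 1 ≠ 0 := by nlinarith
  field_simp

theorem S0_lo {n : ℝ} (hn : 10 ≤ n) : 1/2 < S0 n := by
  have h := S0_eq hn
  have : 0 < n ^ 2 - 1 := by nlinarith
  by_contra hc
  push Not at hc
  nlinarith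

theorem S0_hi {n : ℝ} (hn : 10 ≤ n) : S0 n < 7/9 := by
  have h := S0_eq hn
  have : 0 < n ^ 2 - 1 := by nlinarith
  by_contra hc
  push Not at hc
  nlinarith

theorem trap_hi {n : ℝ} (hn : 10 ≤ n) {ρ y : ℝ} (hρ : 0 < ρ) (hy : 1 + 2/9 * ρ ≤ y) :
    ρ * Phi n ρ y (7/9) < (n + 1) / 2 * (7/9 - S0 n) := by
  have hS := S0_eq hn
  have hy0 : 0 < y := by linarith
  have hP : 0 < (n - 1) * y + 2 * ρ := by nlinarith
  have hN : 0 < n - 1 := by linarith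
  have e : (n + 1) / 2 * (7/9 - S0 n) - ρ * Phi n ρ y (7/9) =
      ((140/81) * ρ * (9/2 * y - ρ) + y * (9/2 * y - ρ) * (2/9) * ((5 * n^2 - 18 * n - 14)/18)
        + y * ρ * (2/9) * (7 * (5 * n + 22) * (n - 10)/36)) / (2 * (y * ((n - 1) * y + 2 * ρ))) := by
    unfold Phi c1
    rw [eq_div_iff (by positivity)]
    generalize S0 n = S at *
    field_simp
    linear_combination (-162*81*18*36*y^2) * hS
  have q1 : 0 < 9/2 * y - ρ := by linarith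
  have q2 : 0 < 5 * n^2 - 18 * n - 14 := by nlinarith
  have q3 : 0 ≤ n - 10 := by linarith
  have : 0 < (n + 1) / 2 * (7/9 - S0 n) - ρ * Phi n ρ y (7/9) := by
    rw [e]
    positivity
  linarith

theorem trap_lo {n : ℝ} (hn : 10 ≤ n) {ρ y : ℝ} (hρ : 0 < ρ) (hy : 0 < y) :
    (n + 1) / 2 * (1/2 - S0 n) < ρ * Phi n ρ y (1/2) := by
  have hS := S0_eq hn
  have hN : 0 < n - 1 := by linarith
  have hP : 0 < (n - 1) * y + 2 * ρ := by positivity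
  have e : ρ * Phi n ρ y (1/2) - (n + 1) / 2 * (1/2 - S0 n) =
      (ρ + (2 * n + 1) / 2 * y) / (2 * ((n - 1) * y + 2 * ρ)) := by
    unfold Phi c1
    rw [eq_div_iff (by positivity)]
    generalize S0 n = S at *
    field_simp
    linear_combination (4 * y ^ 2) * hS
  have : 0 < ρ * Phi n ρ y (1/2) - (n + 1) / 2 * (1/2 - S0 n) := by
    rw [e]
    positivity
  linarith

/-- A continuous function starting below `c` which strictly decreases wherever it is `≥ c` stays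
below `c`. -/
theorem stay_below {f : ℝ → ℝ} {c : ℝ} (hf : Continuous f) (h0 : f 0 < c)
    (hd : ∀ ρ > 0, c ≤ f ρ → ∃ f', HasDerivAt f f' ρ ∧ f' < 0) {ρ : ℝ} (hρ : 0 ≤ ρ) : f ρ < c := by
  by_contra hc
  push Not at hc
  have hcl : IsClosed (Icc 0 ρ ∩ {x | c ≤ f x}) :=
    isClosed_Icc.inter (isClosed_le continuous_const hf)
  have hne : (Icc 0 ρ ∩ {x | c ≤ f x}).Nonempty := ⟨ρ, ⟨hρ, le_rfl⟩, hc⟩
  have hbd : BddBelow (Icc 0 ρ ∩ {x | c ≤ f x}) := ⟨0, fun x hx => hx.1.1⟩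
  have hm := hcl.csInf_mem hne hbd
  set m := sInf (Icc 0 ρ ∩ {x | c ≤ f x}) with hmdef
  have hmc : c ≤ f m := hm.2
  have hm0 : 0 < m := by
    rcases hm.1.1.eq_or_lt with h | h
    · rw [← h] at hmc; linarith
    · exact h
  obtain ⟨f', hf', hneg⟩ := hd m hm0 hmc
  rw [hasDerivAt_iff_tendsto_slope] at hf'
  have h1 : ∀ᶠ x in 𝓝[≠] m, slope f m x < 0 := hf'.eventually (gt_mem_nhds hneg)
  have h2 : ∀ᶠ x in 𝓝[<] m, slope f m x < 0 :=
    h1.filter_mono (nhdsWithin_mono m (fun x hx => ne_of_lt hx))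
  have h3 : ∀ᶠ x in 𝓝[<] m, x ∈ Ioo 0 m := Ioo_mem_nhdsLT hm0
  obtain ⟨x, hx1, hx2⟩ := (h2.and h3).exists
  rw [slope_def_field, div_neg_iff] at hx1
  have hx3 : f m < f x := by
    rcases hx1 with h | h
    · linarith [h.1, h.2, hx2.2]
    · linarith [h.1, h.2, hx2.2]
  have hx4 : m ≤ x := csInf_le hbd ⟨⟨hx2.1.le, hx2.2.le.trans hm.1.2⟩, hmc.trans hx3.le⟩
  linarith [hx2.2]

/-- The trapped solution. -/
theorem exists_trapped (n : ℝ) (hn : 10 ≤ n) : ∃ s : ℝ → ℝ, Continuous s ∧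
    (∀ ρ, s ρ = S0 n + ρ * ∫ τ in (0:ℝ)..1, τ ^ ((n + 1) / 2) * GG n s (τ * ρ)) ∧
    ∃ ε > 0, ε ≤ 1/2 ∧ ∀ ρ > -ε, 1/2 < s ρ ∧ s ρ < 7/9 := by
  obtain ⟨s, hs, h⟩ := exists_clamped n hn
  have h0 : s 0 = S0 n := by rw [h 0]; ring
  have hup : ∀ ρ, 0 ≤ ρ → s ρ < 7/9 := by
    intro ρ hρ
    refine stay_below hs (by rw [h0]; exact S0_hi hn) ?_ hρ
    intro x hx hxs
    obtain ⟨s', hs', he⟩ := clamped_deriv hn hs h x
    refine ⟨s', hs', ?_⟩
    have e1 : GG n s x = Phi n x (yy s x) (7/9) := by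
      unfold GG
      rw [mx_eq (by linarith : -(1/2) ≤ x), cl_of_ge hxs]
    have e2 := trap_hi hn hx (yy_ge_pos hs hx.le)
    rw [e1] at he
    have e3 : (n + 1) / 2 * (7/9 - S0 n) ≤ (n + 1) / 2 * (s x - S0 n) :=
      mul_le_mul_of_nonneg_left (by linarith) (by linarith)
    have e4 : x * s' < 0 := by rw [he]; linarith
    by_contra hc
    push Not at hc
    have := mul_nonneg hx.le hc
    linarith
  have hlo : ∀ ρ, 0 ≤ ρ → 1/2 < s ρ := by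
    intro ρ hρ
    have key : -s ρ < -(1/2) := by
      refine stay_below (f := fun x => -s x) hs.neg (by rw [h0]; have := S0_lo hn; linarith) ?_ hρ
      intro x hx hxs
      have hxs' : s x ≤ 1/2 := by linarith
      obtain ⟨s', hs', he⟩ := clamped_deriv hn hs h x
      refine ⟨-s', hs'.neg, ?_⟩
      have e1 : GG n s x = Phi n x (yy s x) (1/2) := by
        unfold GG
        rw [mx_eq (by linarith : -(1/2) ≤ x), cl_of_le hxs']
      have e2 := trap_lo hn hx (y := yy s x) (by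
        have := (yy_low hs (by linarith : -(1/2) ≤ x)).1
        linarith)
      rw [e1] at he
      have e3 : (n + 1) / 2 * (s x - S0 n) ≤ (n + 1) / 2 * (1/2 - S0 n) :=
        mul_le_mul_of_nonneg_left (by linarith) (by linarith)
      have e4 : 0 < x * s' := by rw [he]; linarith
      have e5 : 0 < s' := by
        by_contra hc
        push Not at hc
        have := mul_nonpos_of_nonneg_of_nonpos hx.le hc
        linarith
      linarith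
    linarith
  refine ⟨s, hs, h, ?_⟩
  have hopen : IsOpen {x | 1/2 < s x ∧ s x < 7/9} :=
    (isOpen_lt continuous_const hs).inter (isOpen_lt hs continuous_const)
  have hmem : (0:ℝ) ∈ {x | 1/2 < s x ∧ s x < 7/9} := ⟨hlo 0 le_rfl, hup 0 le_rfl⟩
  obtain ⟨ε, hε, hball⟩ := Metric.isOpen_iff.1 hopen 0 hmem
  refine ⟨min ε (1/2), by positivity, min_le_right _ _, ?_⟩
  intro ρ hρ
  rcases le_total 0 ρ with h1 | h1
  · exact ⟨hlo ρ h1, hup ρ h1⟩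
  · apply hball
    rw [mem_ball_zero_iff, Real.norm_eq_abs, abs_of_nonpos h1]
    have := min_le_left ε (1/2)
    linarith

theorem contDiffOn_Phi {n : ℝ} {J : Set ℝ} {y s : ℝ → ℝ} {k : WithTop ℕ∞}
    (hy : ContDiffOn ℝ k y J) (hs : ContDiffOn ℝ k s J) (h1 : ∀ ρ ∈ J, y ρ ≠ 0)
    (h2 : ∀ ρ ∈ J, (n - 1) * y ρ + 2 * ρ ≠ 0) :
    ContDiffOn ℝ k (fun ρ => Phi n ρ (y ρ) (s ρ)) J := by
  unfold Phi c1
  have hid : ContDiffOn ℝ k (fun ρ : ℝ => ρ) J := contDiff_id.contDiffOn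
  have h3 : ContDiffOn ℝ k (fun ρ => ρ / y ρ) J := hid.div hy h1
  have h4 : ContDiffOn ℝ k (fun ρ => ((n - 1) * y ρ + 2 * ρ)⁻¹) J :=
    ((contDiffOn_const.mul hy).add (contDiffOn_const.mul hid)).inv h2
  have h5 : ContDiffOn ℝ k (fun ρ => 2 * (n + 1) * (s ρ + -S0 n) + 2 * s ρ +
      n * (s ρ + -(1/2)) * ((n + 2) + (-(2 * (n - 1))) * s ρ)) J :=
    ((contDiffOn_const.mul (hs.add contDiffOn_const)).add (contDiffOn_const.mul hs)).add
      ((contDiffOn_const.mul (hs.add contDiffOn_const)).mul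
        (contDiffOn_const.add (contDiffOn_const.mul hs)))
  exact (contDiffOn_const.mul (h5.add ((contDiffOn_const.mul h3).mul
    (hs.mul (hs.add contDiffOn_const))))).mul h4

theorem ode_alg (N Y S σ ρ s' : ℝ) (hS : S * (N ^ 2 - 1) = N * (N + 2) / 2) (hY : Y ≠ 0)
    (hPn : (N - 1) * Y + 2 * ρ ≠ 0)
    (he : ρ * s' = ρ * ((1/2) * ((2 * (N + 1) * (σ + -S) + 2 * σ +
      N * (σ + -(1/2)) * ((N + 2) + (-(2 * (N - 1))) * σ)) +
      8 * (ρ / Y) * (σ * (σ + -(1/2)))) * ((N - 1) * Y + 2 * ρ)⁻¹) - (N+1)/2 * (σ - S)) :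
    (σ + 2 * ρ * s') * (2 * Y * ((N - 1) * Y + 2 * ρ)) =
      (Y + ρ * (2 * σ - 1)) * (N * ((N + 2) - 2 * (N - 1) * σ) * Y + 8 * ρ * σ) := by
  have e1 : 2 * (ρ * s') * (2 * Y * ((N - 1) * Y + 2 * ρ)) =
      2 * ρ * ((2 * (N + 1) * (σ + -S) + 2 * σ +
        N * (σ + -(1/2)) * ((N + 2) + (-(2 * (N - 1))) * σ)) * Y +
        8 * ρ * (σ * (σ + -(1/2)))) - 2 * (N+1) * (σ - S) * Y * ((N - 1) * Y + 2 * ρ) := by
    rw [he]
    field_simp
  linear_combination e1 + (2 * Y^2) * hS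

/-- (O) The ODE solution. -/
theorem ode_exists (n : ℕ) (hn : 10 ≤ n) : ∃ ε > 0, ∃ y s : ℝ → ℝ,
    ContDiffOn ℝ ∞ y (Ioi (-ε)) ∧ ContDiffOn ℝ ∞ s (Ioi (-ε)) ∧
    ∀ ρ > -ε, 0 < y ρ ∧ 0 < y ρ + ρ * (2 * s ρ - 1) ∧ 0 < ((n:ℝ) - 1) * y ρ + 2 * ρ ∧
      HasDerivAt y (1 - s ρ) ρ ∧
      ∃ s', HasDerivAt s s' ρ ∧
        (s ρ + 2 * ρ * s') * (2 * y ρ * (((n:ℝ) - 1) * y ρ + 2 * ρ)) =
        (y ρ + ρ * (2 * s ρ - 1)) *
          (n * (((n:ℝ) + 2) - 2 * ((n:ℝ) - 1) * s ρ) * y ρ + 8 * ρ * s ρ) := by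
  have hn' : (10:ℝ) ≤ (n:ℝ) := by exact_mod_cast hn
  generalize (n:ℝ) = N at hn' ⊢
  obtain ⟨s, hs, h, ε, hε, hε2, htrap⟩ := exists_trapped N hn'
  have hlow : ∀ ρ > -ε, 3/4 ≤ yy s ρ := fun ρ hρ => (yy_low hs (by linarith)).1
  have hP : ∀ ρ > -ε, 0 < (N - 1) * yy s ρ + 2 * ρ := fun ρ hρ => by
    have := hlow ρ hρ
    nlinarith
  have hcl : ∀ ρ > -ε, cl (s ρ) = s ρ := fun ρ hρ =>
    cl_eq (htrap ρ hρ).1.le (htrap ρ hρ).2.le
  have hGG : ∀ ρ > -ε, GG N s ρ = Phi N ρ (yy s ρ) (s ρ) := fun ρ hρ => by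
    unfold GG
    rw [mx_eq (by linarith : -(1/2) ≤ ρ), hcl ρ hρ]
  have hyd : ∀ ρ > -ε, HasDerivAt (yy s) (1 - s ρ) ρ := fun ρ hρ => by
    have := yy_deriv hs ρ
    rwa [hcl ρ hρ] at this
  have h0mem : (0:ℝ) ∈ Ioi (-ε) := by simp [hε]
  have hsd : ∀ ρ > -ε, HasDerivAt s (GG N s ρ -
      (N + 1) / 2 * ∫ τ in (0:ℝ)..1, τ ^ ((N + 1) / 2) * GG N s (τ * ρ)) ρ := fun ρ hρ => by
    have h1 := hasDerivAt_avg ((N + 1) / 2) (by linarith) isOpen_univ ordConnected_univ (mem_univ 0)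
      (GG_cont N hn' hs).continuousOn (mem_univ ρ)
    exact (h1.const_add (S0 N)).congr_of_eventuallyEq (Eventually.of_forall h)
  have hsmooth : ∀ k : ℕ, ContDiffOn ℝ k s (Ioi (-ε)) ∧ ContDiffOn ℝ k (yy s) (Ioi (-ε)) := by
    intro k
    induction k with
    | zero =>
      exact ⟨contDiffOn_zero.2 hs.continuousOn, contDiffOn_zero.2 (yy_cont hs).continuousOn⟩
    | succ k ih =>
      have hg : ContDiffOn ℝ k (GG N s) (Ioi (-ε)) := by
        refine (contDiffOn_Phi (n := N) ih.2 ih.1 (fun ρ hρ => ?_) (fun ρ hρ => ?_)).congr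
          (fun ρ hρ => hGG ρ hρ)
        · have := hlow ρ hρ
          linarith
        · exact (hP ρ hρ).ne'
      have hav := contDiffOn_avg ((N + 1) / 2) (by linarith) isOpen_Ioi ordConnected_Ioi h0mem hg
      have hk : ((k : WithTop ℕ∞) = ω) → False := by
        intro hk
        exact absurd hk (by simp)
      push_cast
      constructor
      · rw [contDiffOn_succ_iff_deriv_of_isOpen isOpen_Ioi]
        refine ⟨fun ρ hρ => (hsd ρ hρ).differentiableAt.differentiableWithinAt,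
          fun hk' => (hk hk').elim, ?_⟩
        exact (hg.sub (contDiffOn_const.mul hav)).congr (fun ρ hρ => (hsd ρ hρ).deriv)
      · rw [contDiffOn_succ_iff_deriv_of_isOpen isOpen_Ioi]
        refine ⟨fun ρ hρ => (hyd ρ hρ).differentiableAt.differentiableWithinAt,
          fun hk' => (hk hk').elim, ?_⟩
        exact (contDiffOn_const.sub ih.1).congr (fun ρ hρ => (hyd ρ hρ).deriv)
  refine ⟨ε, hε, yy s, s, contDiffOn_infty.2 fun k => (hsmooth k).2,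
    contDiffOn_infty.2 fun k => (hsmooth k).1, ?_⟩
  intro ρ hρ
  have hy := hlow ρ hρ
  have hy0 : 0 < yy s ρ := by linarith
  have hPρ := hP ρ hρ
  obtain ⟨t1, t2⟩ := htrap ρ hρ
  refine ⟨hy0, ?_, hPρ, hyd ρ hρ, ?_⟩
  · rcases le_total 0 ρ with h1 | h1
    · have := mul_nonneg h1 (by linarith : 0 ≤ 2 * s ρ - 1)
      linarith
    · have h2 : -ρ * (2 * s ρ - 1) ≤ 1/2 * (5/9) :=
        mul_le_mul (by linarith) (by linarith) (by linarith) (by norm_num)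
      linarith
  · obtain ⟨s', hs', he⟩ := clamped_deriv hn' hs h ρ
    refine ⟨s', hs', ?_⟩
    rw [hGG ρ hρ] at he
    have hS := S0_eq hn'
    unfold Phi c1 at he
    have e2 := ode_alg N (yy s ρ) (S0 N) (s ρ) ρ s' hS hy0.ne' hPρ.ne' he
    exact e2

end Vale.Agent.P252
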