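import Mathlib
import Vale.Agent.P252.FromOde
import Vale.Agent.P252.Entire

/-!
Smoothness of `√(f(|x'|²) + x₀²)`, and the counterexample from a solution of the ODE.
-/

namespace Vale.Agent.P252

open Set Filter Topology MeasureTheory
open scoped ContDiff

lemma contDiff_RR {m : ℕ} :
    ContDiff ℝ ∞ (RR : EuclideanSpace ℝ (Fin (m + 1)) → ℝ) := by
  have h : (RR : EuclideanSpace ℝ (Fin (m + 1)) → ℝ) = fun x => ∑ i, (xtL i x) ^ 2 := by
    funext x
    unfold RR rr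
    exact Finset.sum_congr rfl fun i _ => by rw [xtL_apply]
  rw [h]
  apply ContDiff.sum
  intro i _
  exact (xtL i).contDiff.pow 2

/-- smoothness of `√(f(|x'|²) + x₀²)` -/
theorem contDiff_sqrt {m : ℕ} {ε : ℝ} (hε : 0 < ε) {f : ℝ → ℝ}
    (hf : ContDiffOn ℝ ∞ f (Ioi (-ε))) (hpos : ∀ ρ > -ε, 0 < f ρ) :
    ContDiff ℝ ∞ (uu f : EuclideanSpace ℝ (Fin (m + 1)) → ℝ) := by
  unfold uu
  rw [contDiff_iff_contDiffAt]
  intro x
  have hR : -ε < RR x := by have := RR_nonneg x; linarith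
  have h1 : ContDiffAt ℝ ∞ f (RR x) := hf.contDiffAt (isOpen_Ioi.mem_nhds hR)
  have h2 : ContDiffAt ℝ ∞ (fun x : EuclideanSpace ℝ (Fin (m + 1)) => f (RR x)) x :=
    h1.comp x contDiff_RR.contDiffAt
  have h3 : ContDiff ℝ ∞ (fun x : EuclideanSpace ℝ (Fin (m + 1)) => x 0) :=
    (EuclideanSpace.proj (0 : Fin (m + 1)) : EuclideanSpace ℝ (Fin (m + 1)) →L[ℝ] ℝ).contDiff
  apply ContDiffAt.sqrt
  · exact h2.add (h3.pow 2).contDiffAt
  · have := hpos _ hR
    positivity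

lemma RR_single {m : ℕ} (t : ℝ) :
    RR (EuclideanSpace.single 0 t : EuclideanSpace ℝ (Fin (m + 1))) = 0 := by
  unfold RR rr
  apply Finset.sum_eq_zero
  intro i _
  unfold xt
  by_cases h : i = 0 <;> simp [h]

/-- From a solution of the first order system one gets a non-quadratic entire solution of the
affine maximal equation. -/
theorem counterexample_of_ode {m : ℕ} {ε : ℝ} (hε : 0 < ε) (hm : 1 ≤ m) {y s : ℝ → ℝ}
    (hy : ContDiffOn ℝ ∞ y (Ioi (-ε)))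
    (h : ∀ ρ > -ε, 0 < y ρ ∧ 0 < y ρ + ρ * (2 * s ρ - 1) ∧
      0 < (((m + 1 : ℕ) : ℝ) - 1) * y ρ + 2 * ρ ∧ HasDerivAt y (1 - s ρ) ρ ∧
      ∃ s', HasDerivAt s s' ρ ∧
        (s ρ + 2 * ρ * s') * (2 * y ρ * ((((m + 1 : ℕ) : ℝ) - 1) * y ρ + 2 * ρ)) =
          (y ρ + ρ * (2 * s ρ - 1)) *
            (((m + 1 : ℕ) : ℝ) * ((((m + 1 : ℕ) : ℝ) + 2) - 2 * (((m + 1 : ℕ) : ℝ) - 1) * s ρ) *
              y ρ + 8 * ρ * s ρ)) :
    ∃ u : EuclideanSpace ℝ (Fin (m + 1)) → ℝ, ContDiff ℝ ∞ u ∧ (∀ x, (hess u x).PosDef) ∧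
      SolvesAM univ u ∧ EuclideanComplete univ u ∧
      ∀ (A : Matrix (Fin (m + 1)) (Fin (m + 1)) ℝ) (b : Fin (m + 1) → ℝ) (c : ℝ),
        ¬ IsQuadraticWith A b c u := by
  obtain ⟨f, hf, hfpos, hpde⟩ := exists_of_ode hε hm hy h
  have hsm : ContDiff ℝ ∞ (uu f : EuclideanSpace ℝ (Fin (m + 1)) → ℝ) :=
    contDiff_sqrt hε hf hfpos
  refine ⟨uu f, hsm, fun x => (hpde x).1, ?_, entire_complete hsm, ?_⟩
  · intro x _
    have h2 := (hpde x).2
    have hdet : (hess (uu f) x).det ≠ 0 := (hpde x).1.det_pos.ne'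
    have haff : affW (uu f : EuclideanSpace ℝ (Fin (m + 1)) → ℝ) =
        fun x => (hess (uu f) x).det ^ (-(((m:ℝ) + 2) / (m + 3))) := by
      funext z
      unfold affW
      congr 2
      push_cast
      ring
    rw [haff, ← h2]
    refine Finset.sum_congr rfl fun i _ => Finset.sum_congr rfl fun j _ => ?_
    congr 1
    rw [Matrix.inv_def, Matrix.smul_apply, smul_eq_mul, ← mul_assoc,
      Ring.inverse_eq_inv', mul_inv_cancel₀ hdet, one_mul]
  · have hpos0 : 0 < f 0 := hfpos 0 (by linarith)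
    intro A b c
    refine not_quadratic hpos0 ?_ A b c
    intro t
    unfold uu
    rw [RR_single]
    simp

end Vale.Agent.P252
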